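import Mathlib

/-!
# P097 / Row Sp: gluing and uniform radii (abstract)
-/

set_option linter.all false

open Complex Metric Filter Topology Set

namespace Vale.Agent.P097.H456.Sp

/-- analytic slices of a function analytic on a product -/
theorem slice_an {D W : Set ℂ} {f : ℂ × ℂ → ℂ} (hf : AnalyticOnNhd ℂ f (D ×ˢ W)) {w : ℂ}
    (hw : w ∈ W) : AnalyticOnNhd ℂ (fun t => f (t, w)) D := fun t ht =>
  (hf (t, w) ⟨ht, hw⟩).comp_of_eq (analyticAt_id.prod analyticAt_const) rfl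

/-- **gluing** of functions analytic on `D i × W` which agree with `f` on `L × W` -/
theorem glue2 {ι : Type*} {L W : Set ℂ} (hL : IsOpen L) (hW : IsOpen W) {D : ι → Set ℂ}
    (hD : ∀ i, IsOpen (D i)) (hDc : ∀ i, Convex ℝ (D i))
    (hm : ∀ i j, (D i ∩ D j).Nonempty → (D i ∩ D j ∩ L).Nonempty) {f : ℂ × ℂ → ℂ}
    {G : ι → ℂ × ℂ → ℂ} (hf : AnalyticOnNhd ℂ f (L ×ˢ W))
    (hG : ∀ i, AnalyticOnNhd ℂ (G i) (D i ×ˢ W))
    (he : ∀ i, ∀ t ∈ D i, t ∈ L → ∀ w ∈ W, G i (t, w) = f (t, w)) :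
    ∃ F : ℂ × ℂ → ℂ, AnalyticOnNhd ℂ F ((L ∪ ⋃ i, D i) ×ˢ W) ∧
      (∀ t ∈ L, ∀ w ∈ W, F (t, w) = f (t, w)) ∧
      ∀ i, ∀ t ∈ D i, ∀ w ∈ W, F (t, w) = G i (t, w) := by
  classical
  set F : ℂ × ℂ → ℂ := fun u => if u.1 ∈ L then f u else
    if h : ∃ i, u.1 ∈ D i then G h.choose u else 0 with hF
  have key : ∀ i j, ∀ t ∈ D i, t ∈ D j → ∀ w ∈ W, G i (t, w) = G j (t, w) := by
    intro i j t hi hj w hw
    obtain ⟨s, ⟨hsi, hsj⟩, hsL⟩ := hm i j ⟨t, hi, hj⟩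
    have h1 := (slice_an (hG i) hw).mono (inter_subset_left (t := D j))
    have h2 := (slice_an (hG j) hw).mono (inter_subset_right (s := D i))
    have h3 : (fun t => G i (t, w)) =ᶠ[𝓝 s] fun t => G j (t, w) := by
      filter_upwards [(hD i).mem_nhds hsi, (hD j).mem_nhds hsj, hL.mem_nhds hsL] with x a b c
      rw [he i x a c w hw, he j x b c w hw]
    exact h1.eqOn_of_preconnected_of_eventuallyEq h2 ((hDc i).inter (hDc j)).isPreconnected
      ⟨hsi, hsj⟩ h3 ⟨hi, hj⟩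
  have hFL : ∀ t ∈ L, ∀ w ∈ W, F (t, w) = f (t, w) := by
    intro t ht w _
    simp only [hF]
    rw [if_pos ht]
  have hFD : ∀ i, ∀ t ∈ D i, ∀ w ∈ W, F (t, w) = G i (t, w) := by
    intro i t ht w hw
    by_cases hL' : t ∈ L
    · rw [hFL t hL' w hw, he i t ht hL' w hw]
    · have h : ∃ i, t ∈ D i := ⟨i, ht⟩
      simp only [hF]
      rw [if_neg hL', dif_pos h]
      exact key _ _ t h.choose_spec ht w hw
  refine ⟨F, ?_, hFL, hFD⟩
  rintro ⟨t, w⟩ ⟨ht, hw⟩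
  rcases ht with ht | ht
  · refine (hf (t, w) ⟨ht, hw⟩).congr ?_
    filter_upwards [(hL.prod hW).mem_nhds ⟨ht, hw⟩] with u hu
    exact (hFL u.1 hu.1 u.2 hu.2).symm
  · obtain ⟨i, hi⟩ := mem_iUnion.1 ht
    refine (hG i (t, w) ⟨hi, hw⟩).congr ?_
    filter_upwards [((hD i).prod hW).mem_nhds ⟨hi, hw⟩] with u hu
    exact (hFD i u.1 hu.1 u.2 hu.2).symm

/-- **uniform radius** by compactness and periodicity -/
theorem unif {Pr : ℝ → ℝ → Prop} (mono : ∀ x r r', 0 < r' → r' ≤ r → Pr x r → Pr x r')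
    (ex : ∀ x, ∃ r > 0, Pr x r)
    (loc : ∀ x x' r, 0 < r → |x' - x| < r / 2 → Pr x r → Pr x' (r / 2))
    (per : ∀ x r, ∀ m : ℤ, Pr x r → Pr (x + m) r) : ∃ r > 0, ∀ x, Pr x r := by
  have h1 : ∃ r > 0, ∀ x ∈ Icc (0 : ℝ) 1, Pr x r := by
    refine isCompact_Icc.induction_on (p := fun s => ∃ r > 0, ∀ x ∈ s, Pr x r) ?_ ?_ ?_ ?_
    · exact ⟨1, one_pos, fun x hx => absurd hx (notMem_empty x)⟩
    · rintro s t hst ⟨r, hr, h⟩
      exact ⟨r, hr, fun x hx => h x (hst hx)⟩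
    · rintro s t ⟨r, hr, h⟩ ⟨r', hr', h'⟩
      refine ⟨min r r', lt_min hr hr', fun x hx => ?_⟩
      rcases hx with hx | hx
      · exact mono _ _ _ (lt_min hr hr') (min_le_left _ _) (h x hx)
      · exact mono _ _ _ (lt_min hr hr') (min_le_right _ _) (h' x hx)
    · intro x _
      obtain ⟨r, hr, h⟩ := ex x
      refine ⟨{x' | |x' - x| < r / 2}, mem_nhdsWithin_of_mem_nhds ?_, r / 2, by positivity,
        fun x' hx' => loc x x' r hr hx' h⟩
      exact (isOpen_lt (by fun_prop) continuous_const).mem_nhds (by simp; positivity)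
  obtain ⟨r, hr, h⟩ := h1
  refine ⟨r, hr, fun x => ?_⟩
  have h2 := per (Int.fract x) r ⌊x⌋ (h _ ⟨Int.fract_nonneg x, (Int.fract_lt_one x).le⟩)
  rwa [add_comm, Int.floor_add_fract] at h2

/-- two discs with centres on the same horizontal line -/
theorem ball_meet {x x' c r b : ℝ} (hc : c < b) (h : (ball ((x : ℂ) + c * I) r ∩
    ball ((x' : ℂ) + c * I) r).Nonempty) : (ball ((x : ℂ) + c * I) r ∩
    ball ((x' : ℂ) + c * I) r ∩ {t : ℂ | t.im < b}).Nonempty := by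
  obtain ⟨z, hz, hz'⟩ := h
  rw [mem_ball, dist_eq_norm] at hz hz'
  have h1 : |x - x'| < 2 * r := by
    have h2 : ((x : ℂ) + c * I) - ((x' : ℂ) + c * I) = ((x - x' : ℝ) : ℂ) := by push_cast; ring
    have h3 : ‖((x : ℂ) + c * I) - ((x' : ℂ) + c * I)‖ < 2 * r := by
      have h4 : ((x : ℂ) + c * I) - ((x' : ℂ) + c * I) =
        (z - ((x' : ℂ) + c * I)) - (z - ((x : ℂ) + c * I)) := by ring
      rw [h4]
      refine (norm_sub_le _ _).trans_lt ?_
      linarith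
    rwa [h2, Complex.norm_real, Real.norm_eq_abs] at h3
  refine ⟨(((x + x') / 2 : ℝ) : ℂ) + c * I, ⟨?_, ?_⟩, ?_⟩
  · rw [mem_ball, dist_eq_norm]
    have e : (((x + x') / 2 : ℝ) : ℂ) + c * I - ((x : ℂ) + c * I) = (((x' - x) / 2 : ℝ) : ℂ) := by
      push_cast; ring
    rw [e, Complex.norm_real, Real.norm_eq_abs, abs_div, abs_sub_comm]
    rw [abs_of_pos (by norm_num : (0 : ℝ) < 2)]
    linarith
  · rw [mem_ball, dist_eq_norm]
    have e : (((x + x') / 2 : ℝ) : ℂ) + c * I - ((x' : ℂ) + c * I) = (((x - x') / 2 : ℝ) : ℂ) := by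
      push_cast; ring
    rw [e, Complex.norm_real, Real.norm_eq_abs, abs_div]
    rw [abs_of_pos (by norm_num : (0 : ℝ) < 2)]
    linarith
  · simp only [mem_setOf_eq, add_im, ofReal_im, mul_im, ofReal_re, I_im, mul_one, I_re, mul_zero,
      add_zero, zero_add]
    exact hc

end Vale.Agent.P097.H456.Sp
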