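import Vale.Agent.P097.H456.Sp.Defs
import Vale.Agent.P097.H456.Sp.Glue
import Vale.Agent.P097.H877.Bd.Hart2
import Vale.Agent.P097.H407.Hol

/-! # P097 / Row Sp: joint extension from real slices (SpJ) -/

set_option linter.all false

open Complex Metric Set Filter Topology

namespace Vale.Agent.P097.H456.Sp

theorem isOpen_Sr' (b c : ℝ) : IsOpen (Sr b c) :=
  (isOpen_lt continuous_const continuous_im).inter (isOpen_lt continuous_im continuous_const)

theorem convex_Sr' (b c : ℝ) : Convex ℝ (Sr b c) :=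
  (convex_halfSpace_im_gt (-b)).inter (convex_halfSpace_im_lt c)

theorem dens_univ' (x : ℝ) : H877.Bd.Dens univ x := by
  intro ε hε
  refine ⟨1, one_pos, fun r _ _ => ?_⟩
  simp

theorem int_perS {f : ℂ → ℂ} {k : ℂ} {b c : ℝ} (h : ∀ t ∈ Sr b c, f (t + 1) = f t + k) (m : ℤ) :
    ∀ t ∈ Sr b c, f (t + m) = f t + m * k := by
  have hS : ∀ t ∈ Sr b c, ∀ m : ℤ, t + m ∈ Sr b c := by
    intro t ht m
    have h1 : -b < t.im := ht.1
    have h2 : t.im < c := ht.2
    exact ⟨by simpa using h1, by simpa using h2⟩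
  induction m using Int.induction_on with
  | zero => intro t _; simp
  | succ i ih =>
    intro t ht
    have h1 := h (t + ((i : ℤ) : ℂ)) (hS t ht i)
    have h2 := ih t ht
    push_cast at h1 h2 ⊢
    rw [← add_assoc, h1, h2]
    ring
  | pred i ih =>
    intro t ht
    have h1 := h (t + ((-(i : ℤ) - 1 : ℤ) : ℂ)) (hS t ht _)
    have h2 := ih t ht
    have e : t + ((-(i : ℤ) - 1 : ℤ) : ℂ) + 1 = t + ((-(i : ℤ) : ℤ) : ℂ) := by
      push_cast; ring
    rw [e, h2] at h1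
    have h3 : f (t + ((-(i : ℤ) - 1 : ℤ) : ℂ)) = f t + ((-(i : ℤ) : ℤ) : ℂ) * k - k := by
      rw [h1]; ring
    rw [h3]
    push_cast
    ring

/-- joint extension up to the height `c` -/
def Jt (f : ℂ × ℂ → ℂ) (b₀ u ε c : ℝ) : Prop :=
  ∃ ε' > 0, ε' ≤ ε ∧ ∃ G : ℂ × ℂ → ℂ, AnalyticOnNhd ℂ G (Sr b₀ c ×ˢ ball (u : ℂ) ε') ∧
    ∀ t w : ℂ, |t.im| < b₀ → w ∈ ball (u : ℂ) ε' → G (t, w) = f (t, w)

theorem jt_step {f : ℂ × ℂ → ℂ} {b₀ b b₁ u ε : ℝ} {k : ℂ} (hb₀ : 0 < b₀) (hb : b₀ ≤ b)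
    (hb₁ : b < b₁) (hε : 0 < ε)
    (hf : AnalyticOnNhd ℂ f ({t : ℂ | |t.im| < b₀} ×ˢ ball (u : ℂ) ε))
    (hper : ∀ t w : ℂ, |t.im| < b₀ → w ∈ ball (u : ℂ) ε → f (t + 1, w) = f (t, w) + k)
    (hsl : ∀ v : ℝ, |v - u| < ε → ∃ g : ℂ → ℂ, AnalyticOnNhd ℂ g (Sr b₀ b₁) ∧
      ∀ t : ℂ, |t.im| < b₀ → g t = f (t, v)) {σ : ℝ} (hσ0 : 0 < σ) (hσ1 : σ ≤ (b₁ - b) / 2)
    (hσ2 : σ ≤ b₀ / 2) {c : ℝ} (hc0 : b₀ ≤ c) (hcb : c ≤ b) (hJ : Jt f b₀ u ε c) :
    Jt f b₀ u ε (c + σ) := by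
  obtain ⟨ε', hε', hεε, G, hG, hGf⟩ := hJ
  choose! g hg1 hg2 using hsl
  set h : ℝ := c - σ / 2 with hh
  have hL0 : (0 : ℂ) ∈ Sr b₀ c := ⟨by simpa using hb₀, by simp; linarith⟩
  have hLo := isOpen_Sr' b₀ c
  have hLc := convex_Sr' b₀ c
  have hlowO : IsOpen {t : ℂ | |t.im| < b₀} :=
    isOpen_lt (f := fun t : ℂ => |t.im|) (by fun_prop) continuous_const
  have hlow0 : (0 : ℂ) ∈ {t : ℂ | |t.im| < b₀} := by simpa using hb₀
  have hlowS : ∀ t : ℂ, |t.im| < b₀ → t ∈ Sr b₀ c := by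
    intro t ht
    have := abs_lt.1 ht
    exact ⟨this.1, lt_of_lt_of_le this.2 hc0⟩
  have slG : ∀ {w : ℂ}, w ∈ ball (u : ℂ) ε' → AnalyticOnNhd ℂ (fun t => G (t, w)) (Sr b₀ c) :=
    fun hw => slice_an hG hw
  -- periodicity of `G`
  have hGper : ∀ {w : ℂ}, w ∈ ball (u : ℂ) ε' → ∀ t ∈ Sr b₀ c, G (t + 1, w) = G (t, w) + k := by
    intro w hw t ht
    have a1 : AnalyticOnNhd ℂ (fun t => G (t + 1, w)) (Sr b₀ c) := by
      intro t ht
      have ht' : t + 1 ∈ Sr b₀ c := ⟨by simpa using ht.1, by simpa using ht.2⟩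
      exact (slG hw (t + 1) ht').comp_of_eq (f := fun t : ℂ => t + 1)
        (analyticAt_id.add analyticAt_const) rfl
    have a2 : AnalyticOnNhd ℂ (fun t => G (t, w) + k) (Sr b₀ c) := fun t ht =>
      (slG hw t ht).add analyticAt_const
    refine a1.eqOn_of_preconnected_of_eventuallyEq a2 hLc.isPreconnected hL0 ?_ ht
    filter_upwards [hlowO.mem_nhds hlow0] with s hs
    have hs' : |(s + 1).im| < b₀ := by simpa using hs
    rw [hGf (s + 1) w hs' hw, hGf s w hs hw]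
    exact hper s w hs (ball_subset_ball hεε hw)
  -- slices of `G`
  have hgG : ∀ v : ℝ, |v - u| < ε' → ∀ t ∈ Sr b₀ c, g v t = G (t, (v : ℂ)) := by
    intro v hv t ht
    have hvb : (v : ℂ) ∈ ball (u : ℂ) ε' := by
      rw [mem_ball, dist_eq_norm, ← ofReal_sub, norm_real, Real.norm_eq_abs]
      exact hv
    have hv' : |v - u| < ε := lt_of_lt_of_le hv hεε
    have a1 : AnalyticOnNhd ℂ (g v) (Sr b₀ c) := (hg1 v hv').mono fun t ht =>
      ⟨ht.1, by
        have : t.im < c := ht.2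
        show t.im < b₁
        linarith⟩
    refine a1.eqOn_of_preconnected_of_eventuallyEq (slG hvb) hLc.isPreconnected hL0 ?_ ht
    filter_upwards [hlowO.mem_nhds hlow0] with s hs
    rw [hGf s v hs hvb]
    exact hg2 v hv' s hs
  -- balls
  have hball : ∀ (x R : ℝ), ∀ t ∈ ball ((x : ℂ) + h * I) R, h - R < t.im ∧ t.im < h + R := by
    intro x R t ht
    rw [mem_ball, dist_eq_norm] at ht
    have h2 := (abs_im_le_norm (t - ((x : ℂ) + h * I))).trans_lt ht
    have f2 : (t - ((x : ℂ) + h * I)).im = t.im - h := by simp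
    rw [f2] at h2
    have h3 := abs_lt.1 h2
    exact ⟨by linarith [h3.1], by linarith [h3.2]⟩
  set Pr : ℝ → ℝ → Prop := fun x r => ∃ F : ℂ × ℂ → ℂ,
    AnalyticOnNhd ℂ F (ball ((x : ℂ) + h * I) (3 * σ / 2 + r) ×ˢ ball (u : ℂ) r) ∧
    r ≤ ε' ∧ r ≤ σ / 4 ∧
    ∀ t ∈ ball ((x : ℂ) + h * I) (3 * σ / 2 + r), t.im < c → ∀ w ∈ ball (u : ℂ) r,
      F (t, w) = G (t, w) with hPr
  obtain ⟨r, hr, hrP⟩ : ∃ r > 0, ∀ x, Pr x r := by
    refine unif ?_ ?_ ?_ ?_
    · rintro x r r' hr' hrr ⟨F, hF, h1, h2, h3⟩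
      refine ⟨F, hF.mono (prod_mono (ball_subset_ball (by linarith)) (ball_subset_ball hrr)),
        by linarith, by linarith, fun t ht htc w hw => h3 t (ball_subset_ball (by linarith) ht) htc w
          (ball_subset_ball hrr hw)⟩
    · intro x
      set ξ : ℂ := (x : ℂ) + h * I with hξ
      have hξim : ξ.im = h := by simp [hξ]
      have hξS : ξ ∈ Sr b₀ c := ⟨by rw [hξim]; linarith, by rw [hξim]; linarith⟩
      have hsub1 : ball ξ (σ / 2) ⊆ Sr b₀ c := by
        intro t ht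
        have := hball x _ t ht
        exact ⟨by linarith [this.1], by linarith [this.2]⟩
      have hsub2 : ball ξ (2 * σ) ⊆ Sr b₀ b₁ := by
        intro t ht
        have := hball x _ t ht
        exact ⟨by linarith [this.1], by linarith [this.2]⟩
      have hdf : DifferentiableOn ℂ G (ball ξ (σ / 2) ×ˢ ball (u : ℂ) ε') := fun z hz =>
        (hG z ⟨hsub1 hz.1, hz.2⟩).differentiableAt.differentiableWithinAt
      obtain ⟨δ', hδ', hδε, F, hF, hFG, -⟩ := H877.Bd.hart (ξ₁ := ξ) (u₀ := u) (d := σ / 2)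
        (δ := ε') (ρ₁ := 2 * σ) (by positivity) hε' hdf (dens_univ' u) (g := g) (by
          intro v _ hv
          have hv' : |v - u| < ε := lt_of_lt_of_le hv hεε
          refine ⟨((hg1 v hv').mono hsub2).differentiableOn, ?_⟩
          filter_upwards [hLo.mem_nhds hξS] with t ht using hgG v hv t ht)
        (ρ := 7 * σ / 4) (by positivity) (by linarith)
      have haF : AnalyticOnNhd ℂ F (ball ξ (7 * σ / 4) ×ˢ ball (u : ℂ) δ') :=
        Hol.analyticOnNhd_of_differentiableOn (isOpen_ball.prod isOpen_ball) hF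
      have hr1 : min δ' (σ / 4) ≤ δ' := min_le_left _ _
      have hr2 : min δ' (σ / 4) ≤ σ / 4 := min_le_right _ _
      refine ⟨min δ' (σ / 4), lt_min hδ' (by positivity), F,
        haF.mono (prod_mono (ball_subset_ball (by linarith)) (ball_subset_ball hr1)),
        by linarith, hr2, fun t ht htc w hw => ?_⟩
      have hwδ : w ∈ ball (u : ℂ) δ' := ball_subset_ball hr1 hw
      have hwε : w ∈ ball (u : ℂ) ε' := ball_subset_ball hδε hwδ
      set K : Set ℂ := ball ξ (7 * σ / 4) ∩ {t | t.im < c} with hK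
      have hKc : Convex ℝ K := (convex_ball _ _).inter (convex_halfSpace_im_lt c)
      have hKS : K ⊆ Sr b₀ c := fun s hs => ⟨by linarith [(hball x _ s hs.1).1], hs.2⟩
      have hξK : ξ ∈ K := ⟨mem_ball_self (by positivity), by
        show ξ.im < c
        rw [hξim]; linarith⟩
      have a1 : AnalyticOnNhd ℂ (fun t => F (t, w)) K := (slice_an haF hwδ).mono inter_subset_left
      have a2 : AnalyticOnNhd ℂ (fun t => G (t, w)) K := (slG hwε).mono hKS
      refine a1.eqOn_of_preconnected_of_eventuallyEq a2 hKc.isPreconnected hξK ?_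
        (⟨ball_subset_ball (by linarith) ht, htc⟩ : t ∈ K)
      filter_upwards [ball_mem_nhds ξ (lt_min (by positivity) (by positivity) :
        0 < min (σ / 2) (7 * σ / 4))] with s hs
      exact hFG s w hs hwδ
    · rintro x x' r hr hxx ⟨F, hF, h1, h2, h3⟩
      have hsub : ball ((x' : ℂ) + h * I) (3 * σ / 2 + r / 2) ⊆
          ball ((x : ℂ) + h * I) (3 * σ / 2 + r) := by
        refine ball_subset_ball' ?_
        rw [dist_eq_norm, show (x' : ℂ) + h * I - ((x : ℂ) + h * I) = ((x' - x : ℝ) : ℂ) by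
          push_cast; ring, norm_real, Real.norm_eq_abs]
        linarith
      refine ⟨F, hF.mono (prod_mono hsub (ball_subset_ball (by linarith))), by linarith,
        by linarith, fun t ht htc w hw => h3 t (hsub ht) htc w (ball_subset_ball (by linarith) hw)⟩
    · rintro x r m ⟨F, hF, h1, h2, h3⟩
      have hmem : ∀ t ∈ ball (((x + m : ℝ) : ℂ) + h * I) (3 * σ / 2 + r),
          t - m ∈ ball ((x : ℂ) + h * I) (3 * σ / 2 + r) := by
        intro t ht
        rw [mem_ball, dist_eq_norm] at ht ⊢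
        rw [show t - (m : ℂ) - ((x : ℂ) + h * I) = t - (((x + m : ℝ) : ℂ) + h * I) by
          push_cast; ring]
        exact ht
      refine ⟨fun z => F (z.1 - m, z.2) + m * k, ?_, h1, h2, fun t ht htc w hw => ?_⟩
      · rintro ⟨t, w⟩ ⟨ht, hw⟩
        have a1 : AnalyticAt ℂ (fun z : ℂ × ℂ => F (z.1 - m, z.2)) (t, w) :=
          (hF (t - m, w) ⟨hmem t ht, hw⟩).comp_of_eq (f := fun z : ℂ × ℂ => (z.1 - m, z.2))
            ((analyticAt_fst.sub analyticAt_const).prod analyticAt_snd) rfl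
        exact a1.add analyticAt_const
      · have htm := hmem t ht
        have e1 : (t - (m : ℂ)).im = t.im := by simp
        have e2 : (t - (m : ℂ)) ∈ Sr b₀ c := ⟨by linarith [(hball x _ _ htm).1], by
          show (t - (m : ℂ)).im < c
          rw [e1]; exact htc⟩
        have e3 := int_perS (f := fun t => G (t, w)) (hGper (ball_subset_ball h1 hw)) m _ e2
        simp only [sub_add_cancel] at e3
        show F (t - m, w) + m * k = G (t, w)
        rw [h3 _ htm (by rw [e1]; exact htc) w hw, e3]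
  -- glue
  choose F hF h1 h2 h3 using hrP
  have hrε : r ≤ ε' := h1 0
  have hrσ : r ≤ σ / 4 := h2 0
  obtain ⟨Fg, hFg, hFgL, -⟩ := glue2 (L := Sr b₀ c) (W := ball (u : ℂ) r)
    (D := fun x : ℝ => ball ((x : ℂ) + h * I) (3 * σ / 2 + r)) hLo isOpen_ball
    (fun x => isOpen_ball) (fun x => convex_ball _ _) (by
      intro x x' hxx
      obtain ⟨z, ⟨hz1, hz2⟩, hz3⟩ := ball_meet (b := c) (show h < c by rw [hh]; linarith) hxx
      exact ⟨z, ⟨hz1, hz2⟩, by linarith [(hball x _ z hz1).1], hz3⟩)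
    (f := G) (G := F) (hG.mono (prod_mono Subset.rfl (ball_subset_ball hrε))) hF
    (fun x t ht htL w hw => h3 x t ht htL.2 w hw)
  refine ⟨r, hr, hrε.trans hεε, Fg, hFg.mono (prod_mono ?_ Subset.rfl), fun t w ht hw => ?_⟩
  · rintro t ⟨ht1, ht2⟩
    by_cases htc : t.im < c
    · exact Or.inl ⟨ht1, htc⟩
    · push Not at htc
      refine Or.inr (mem_iUnion.2 ⟨t.re, ?_⟩)
      show t ∈ ball ((t.re : ℂ) + h * I) (3 * σ / 2 + r)
      rw [mem_ball, dist_eq_norm]
      have e : t - ((t.re : ℂ) + h * I) = ((t.im - h : ℝ) : ℂ) * I := by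
        apply Complex.ext <;> simp
      rw [e, norm_mul, norm_I, mul_one, norm_real, Real.norm_eq_abs, abs_lt]
      constructor
      · linarith
      · linarith
  · rw [hFgL t (hlowS t ht) w hw]
    exact hGf t w ht (ball_subset_ball hrε hw)

/-- **Row SpJ** -/
theorem spJ : SpJ := by
  intro f b₀ b b₁ u ε k hb₀ hb hb₁ hε hf hper hsl
  set σ : ℝ := min (b₁ - b) b₀ / 2 with hσ
  have hσ0 : 0 < σ := by
    have : 0 < min (b₁ - b) b₀ := lt_min (by linarith) hb₀
    positivity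
  have hσ1 : σ ≤ (b₁ - b) / 2 := by
    rw [hσ]; linarith [min_le_left (b₁ - b) b₀]
  have hσ2 : σ ≤ b₀ / 2 := by
    rw [hσ]; linarith [min_le_right (b₁ - b) b₀]
  have hmono : ∀ {c c' : ℝ}, c' ≤ c → Jt f b₀ u ε c → Jt f b₀ u ε c' := by
    rintro c c' hcc ⟨ε', h1, h2, G, h3, h4⟩
    exact ⟨ε', h1, h2, G, h3.mono (prod_mono (fun t ht => ⟨ht.1, lt_of_lt_of_le ht.2 hcc⟩)
      Subset.rfl), h4⟩
  have hJ0 : Jt f b₀ u ε b₀ := by
    refine ⟨ε, hε, le_rfl, f, hf.mono (prod_mono (fun t ht => abs_lt.2 ht) Subset.rfl),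
      fun _ _ _ _ => rfl⟩
  have hJn : ∀ n : ℕ, Jt f b₀ u ε (min b (b₀ + n * σ)) := by
    intro n
    induction n with
    | zero => simpa [hb] using hJ0
    | succ n ih =>
      have hnσ : 0 ≤ (n : ℝ) * σ := by positivity
      have h1 : b₀ ≤ min b (b₀ + n * σ) := le_min hb (by linarith)
      have h2 := jt_step hb₀ hb hb₁ hε hf hper hsl hσ0 hσ1 hσ2 h1 (min_le_left _ _) ih
      refine hmono ?_ h2
      rcases le_total b (b₀ + n * σ) with h3 | h3
      · rw [min_eq_left h3]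
        exact (min_le_left _ _).trans (by linarith)
      · rw [min_eq_right h3]
        refine (min_le_right _ _).trans ?_
        push_cast
        linarith
  obtain ⟨n, hn⟩ := exists_nat_ge ((b - b₀) / σ)
  rw [div_le_iff₀ hσ0] at hn
  have h := hJn n
  rw [min_eq_left (by linarith)] at h
  exact h

end Vale.Agent.P097.H456.Sp
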