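import Vale.Agent.P097.H456.Sp.Reg
import Vale.Agent.P097.H324.CD.P1b

/-! # P097 / Row Sp: the region with the columns -/

set_option linter.all false

open Complex Metric Set Filter Topology

namespace Vale.Agent.P097.H456.Sp

open Vale.Agent.P097 Vale.Agent.P097.TA Vale.Agent.P097.H202 Vale.Agent.P097.SC
open Vale.Agent.P097.H456.Fct Vale.Agent.P097.CD

/-- the region with the columns -/
def Dc (b₀ ρ x' D b₁ u ε : ℝ) : Set (ℂ × ℂ) :=
  {z | ‖z.2‖ < ρ ∧ (|z.1.im| < b₀ ∨ (z.2 ∈ ball (u : ℂ) ε ∧ -b₀ < z.1.im ∧ z.1.im < b₁ ∧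
    ∃ m : ℤ, |z.1.re - x' - m| < D))}

/-- one column -/
def Cl (x' D a b₁ : ℝ) : Set ℂ := {t : ℂ | |t.re - x'| < D ∧ a < t.im ∧ t.im < b₁}

theorem int_per {f : ℂ × ℂ → ℂ} {k w : ℂ} {b₀ : ℝ}
    (h : ∀ t : ℂ, |t.im| < b₀ → f (t + 1, w) = f (t, w) + k) (m : ℤ) :
    ∀ t : ℂ, |t.im| < b₀ → f (t + m, w) = f (t, w) + m * k := by
  induction m using Int.induction_on with
  | zero => intro t _; simp
  | succ i ih =>
    intro t ht
    have h1 := h (t + (i : ℂ)) (by simpa using ht)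
    have h2 := ih t ht
    push_cast at h2 ⊢
    rw [← add_assoc, h1, h2]
    ring
  | pred i ih =>
    intro t ht
    have h1 := h (t + ((-(i : ℤ) - 1 : ℤ) : ℂ)) (by simpa using ht)
    have h2 := ih t ht
    have e : t + ((-(i : ℤ) - 1 : ℤ) : ℂ) + 1 = t + ((-(i : ℤ) : ℤ) : ℂ) := by
      push_cast; ring
    rw [e, h2] at h1
    have h3 : f (t + ((-(i : ℤ) - 1 : ℤ) : ℂ), w) = f (t, w) + ((-(i : ℤ) : ℤ) : ℂ) * k - k := by
      rw [h1]; ring
    rw [h3]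
    push_cast
    ring

theorem isOpen_Tb' (b₀ ρ : ℝ) : IsOpen (Tb b₀ ρ) := H324.CD.isOpen_Tb b₀ ρ

/-- extension of one function to the region -/
theorem ext_one {b₀ ρ x' D a b₁ u ε : ℝ} {f f₁ : ℂ × ℂ → ℂ} {k : ℂ} (hD : D ≤ 1 / 2)
    (hab : a < b₀) (hf : AnalyticOnNhd ℂ f (Tb b₀ ρ))
    (hper : ∀ t w : ℂ, (t, w) ∈ Tb b₀ ρ → f (t + 1, w) = f (t, w) + k)
    (hf₁ : AnalyticOnNhd ℂ f₁ (Cl x' D a b₁ ×ˢ ball (u : ℂ) ε))
    (heq : ∀ t w : ℂ, |t.re - x'| < D → a < t.im → t.im < b₀ → w ∈ ball (u : ℂ) ε → ‖w‖ < ρ →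
      f₁ (t, w) = f (t, w)) :
    ∃ f' : ℂ × ℂ → ℂ, AnalyticOnNhd ℂ f' (Dc b₀ ρ x' D b₁ u ε) ∧
      (∀ t w : ℂ, |t.im| < b₀ → f' (t, w) = f (t, w)) ∧
      ∀ (t w : ℂ) (m : ℤ), ‖w‖ < ρ → w ∈ ball (u : ℂ) ε → -b₀ < t.im → a < t.im → t.im < b₁ →
        |t.re - x' - m| < D → f' (t, w) = f₁ (t - m, w) + m * k := by
  classical
  set f' : ℂ × ℂ → ℂ := fun z => if |z.1.im| < b₀ then f z else
    if h : ∃ m : ℤ, |z.1.re - x' - m| < D then f₁ (z.1 - h.choose, z.2) + h.choose * k else 0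
    with hf'
  have h1 : ∀ t w : ℂ, |t.im| < b₀ → f' (t, w) = f (t, w) := by
    intro t w ht
    simp only [hf']
    rw [if_pos ht]
  have h2 : ∀ (t w : ℂ) (m : ℤ), ‖w‖ < ρ → w ∈ ball (u : ℂ) ε → -b₀ < t.im → a < t.im →
      t.im < b₁ → |t.re - x' - m| < D → f' (t, w) = f₁ (t - m, w) + m * k := by
    intro t w m hw hwu ht0 hta ht1 htm
    by_cases h : |t.im| < b₀
    · rw [h1 t w h]
      have h3 := int_per (f := f) (k := k) (w := w) (b₀ := b₀)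
        (fun t ht => hper t w ⟨ht, hw⟩) m (t - m) (by simpa using h)
      have h4 := heq (t - m) w (by
        rw [sub_re, intCast_re]
        rw [show t.re - (m : ℝ) - x' = t.re - x' - m by ring]
        exact htm) (by simpa using hta) (by simpa using (abs_lt.1 h).2) hwu hw
      rw [h4, ← h3, sub_add_cancel]
    · have hex : ∃ m : ℤ, |t.re - x' - m| < D := ⟨m, htm⟩
      have hm : hex.choose = m := by
        have h5 := abs_lt.1 hex.choose_spec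
        have h6 := abs_lt.1 htm
        have h7 : ((hex.choose : ℤ) : ℝ) - m < 1 := by linarith [h5.1, h6.2]
        have h8 : (-1 : ℝ) < ((hex.choose : ℤ) : ℝ) - m := by linarith [h5.2, h6.1]
        have h9 : hex.choose - m < 1 := by exact_mod_cast h7
        have h10 : -1 < hex.choose - m := by exact_mod_cast h8
        omega
      simp only [hf']
      rw [if_neg h, dif_pos hex, hm]
  refine ⟨f', ?_, h1, h2⟩
  rintro ⟨t, w⟩ ⟨hw, hz⟩
  simp only [] at hw hz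
  by_cases h : |t.im| < b₀
  · refine (hf (t, w) ⟨h, hw⟩).congr ?_
    filter_upwards [(isOpen_Tb' b₀ ρ).mem_nhds (⟨h, hw⟩ : (t, w) ∈ Tb b₀ ρ)] with z hz'
    exact (h1 z.1 z.2 hz'.1).symm
  · rcases hz with hz | ⟨hwu, hz0, hz1, m, hm⟩
    · exact absurd hz h
    · have hb : b₀ ≤ t.im := by
        by_contra hcon
        push Not at hcon
        exact h (abs_lt.2 ⟨hz0, hcon⟩)
      have hta : a < t.im := by linarith
      have h3 : AnalyticAt ℂ (fun z : ℂ × ℂ => f₁ (z.1 - m, z.2) + m * k) (t, w) := by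
        have h4 : (t - m, w) ∈ Cl x' D a b₁ ×ˢ ball (u : ℂ) ε := by
          refine ⟨⟨?_, by simpa using hta, by simpa using hz1⟩, hwu⟩
          rw [sub_re, intCast_re]
          rw [show t.re - (m : ℝ) - x' = t.re - x' - m by ring]
          exact hm
        have h5 : AnalyticAt ℂ (fun z : ℂ × ℂ => f₁ (z.1 - m, z.2)) (t, w) :=
          (hf₁ _ h4).comp_of_eq (f := fun z : ℂ × ℂ => (z.1 - m, z.2))
            ((analyticAt_fst.sub analyticAt_const).prod analyticAt_snd) rfl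
        exact h5.add analyticAt_const
      refine h3.congr ?_
      have e1 : ∀ᶠ z : ℂ × ℂ in 𝓝 (t, w), ‖z.2‖ < ρ :=
        (isOpen_lt (continuous_norm.comp continuous_snd) continuous_const).mem_nhds hw
      have e2 : ∀ᶠ z : ℂ × ℂ in 𝓝 (t, w), z.2 ∈ ball (u : ℂ) ε :=
        (isOpen_ball.preimage continuous_snd).mem_nhds hwu
      have e3 : ∀ᶠ z : ℂ × ℂ in 𝓝 (t, w), -b₀ < z.1.im :=
        (isOpen_lt continuous_const (continuous_im.comp continuous_fst)).mem_nhds hz0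
      have e4 : ∀ᶠ z : ℂ × ℂ in 𝓝 (t, w), a < z.1.im :=
        (isOpen_lt continuous_const (continuous_im.comp continuous_fst)).mem_nhds hta
      have e5 : ∀ᶠ z : ℂ × ℂ in 𝓝 (t, w), z.1.im < b₁ :=
        (isOpen_lt (continuous_im.comp continuous_fst) continuous_const).mem_nhds hz1
      have e6 : ∀ᶠ z : ℂ × ℂ in 𝓝 (t, w), |z.1.re - x' - m| < D :=
        (isOpen_lt (f := fun z : ℂ × ℂ => |z.1.re - x' - m|) (by fun_prop)
          continuous_const).mem_nhds hm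
      filter_upwards [e1, e2, e3, e4, e5, e6] with z g1 g2 g3 g4 g5 g6
      exact (h2 z.1 z.2 m g1 g2 g3 g4 g5 g6).symm

/-- periodicity of the lines on the tube -/
theorem tu_per {κ Λ : ℝ} {H Φ : ℂ → ℂ} {r e : ℝ} {α p : ℂ → ℂ → ℂ} {J : ℂ → ℂ}
    (N : Lines κ Λ H Φ r e α p J) {b₀ ρ : ℝ} {A P : ℂ × ℂ → ℂ} (T : Tu α p b₀ ρ A P) :
    ∀ t w : ℂ, (t, w) ∈ Tb b₀ ρ → A (t + 1, w) = A (t, w) + 2 * Real.pi ∧
      P (t + 1, w) = P (t, w) := by
  have hW : ∀ᶠ u in 𝓝 ((0 : ℂ), (0 : ℂ)), u ∈ WW 0 r e :=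
    (isOpen_WW _ _ _).mem_nhds ⟨by simpa using N.he, by simpa using N.hr⟩
  have h0 := T.eq 0
  rw [ofReal_zero] at h0
  have h1 := T.eq 1
  have ht : Tendsto (fun u : ℂ × ℂ => (u.1 + 1, u.2)) (𝓝 ((0 : ℂ), (0 : ℂ)))
      (𝓝 (((1 : ℝ) : ℂ), (0 : ℂ))) := by
    have hc : ContinuousAt (fun u : ℂ × ℂ => (u.1 + 1, u.2)) ((0 : ℂ), (0 : ℂ)) := by fun_prop
    simpa [ContinuousAt] using hc
  have h1' := ht.eventually h1
  have sh : ∀ {f : ℂ × ℂ → ℂ}, AnalyticOnNhd ℂ f (Tb b₀ ρ) →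
      AnalyticOnNhd ℂ (fun u : ℂ × ℂ => f (u.1 + 1, u.2)) (Tb b₀ ρ) := by
    intro f hf u hu
    exact (hf (u.1 + 1, u.2) ⟨by simpa using hu.1, hu.2⟩).comp_of_eq
      (f := fun u : ℂ × ℂ => (u.1 + 1, u.2))
      ((analyticAt_fst.add analyticAt_const).prod analyticAt_snd) rfl
  intro t w htw
  constructor
  · refine H324.CD.eqOn_Tb T.y0 T.ρ0 (sh T.aA) (T.aA.add analyticOnNhd_const) ?_ htw
    filter_upwards [h0, h1', hW] with u g0 g1 g2
    show A (u.1 + 1, u.2) = A u + 2 * Real.pi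
    rw [g1.1, g0.1]
    exact N.αper u.1 u.2 g2
  · refine H324.CD.eqOn_Tb T.y0 T.ρ0 (sh T.aP) T.aP ?_ htw
    filter_upwards [h0, h1', hW] with u g0 g1 g2
    show P (u.1 + 1, u.2) = P u
    rw [g1.2, g0.2]
    exact N.pper u.1 u.2 g2

theorem isOpen_Dc (b₀ ρ x' D b₁ u ε : ℝ) : IsOpen (Dc b₀ ρ x' D b₁ u ε) := by
  have e : Dc b₀ ρ x' D b₁ u ε = {z : ℂ × ℂ | ‖z.2‖ < ρ} ∩ ({z : ℂ × ℂ | |z.1.im| < b₀} ∪
      ({z : ℂ × ℂ | z.2 ∈ ball (u : ℂ) ε} ∩ ({z : ℂ × ℂ | -b₀ < z.1.im} ∩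
        ({z : ℂ × ℂ | z.1.im < b₁} ∩ ⋃ m : ℤ, {z : ℂ × ℂ | |z.1.re - x' - m| < D})))) := by
    ext z
    simp only [Dc, mem_setOf_eq, mem_inter_iff, mem_union, mem_iUnion]
  rw [e]
  refine IsOpen.inter (isOpen_lt (by fun_prop) (by fun_prop)) (IsOpen.union
    (isOpen_lt (by fun_prop) (by fun_prop)) (IsOpen.inter (isOpen_ball.preimage continuous_snd)
      (IsOpen.inter (isOpen_lt (by fun_prop) (by fun_prop)) (IsOpen.inter
        (isOpen_lt (by fun_prop) (by fun_prop)) (isOpen_iUnion fun m => ?_)))))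
  exact isOpen_lt (by fun_prop) (by fun_prop)

/-- **the region of regularity** -/
theorem exists_Rg {κ Λ : ℝ} {H Φ : ℂ → ℂ} {r e : ℝ} {α p : ℂ → ℂ → ℂ} {J : ℂ → ℂ}
    (N : Lines κ Λ H Φ r e α p J) {b₀ ρ x' D a b₁ u ε : ℝ} {A P A₁ P₁ : ℂ × ℂ → ℂ}
    (T : Tu α p b₀ ρ A P) (hD : D ≤ 1 / 2) (hab : a < b₀)
    (hA₁ : AnalyticOnNhd ℂ A₁ (Cl x' D a b₁ ×ˢ ball (u : ℂ) ε))
    (hP₁ : AnalyticOnNhd ℂ P₁ (Cl x' D a b₁ ×ˢ ball (u : ℂ) ε))
    (heq : ∀ t w : ℂ, |t.re - x'| < D → a < t.im → t.im < b₀ → w ∈ ball (u : ℂ) ε → ‖w‖ < ρ →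
      A₁ (t, w) = A (t, w) ∧ P₁ (t, w) = P (t, w)) {v : ℝ} (hv : |v| < ρ) :
    ∃ A' P' : ℂ × ℂ → ℂ, Rg α p (Dc b₀ ρ x' D b₁ u ε) v A' P' ∧
      ∀ t w : ℂ, |t.im| < b₀ → A' (t, w) = A (t, w) ∧ P' (t, w) = P (t, w) := by
  have hb₀ := T.y0
  obtain ⟨A', hA', hA'1, hA'2⟩ := ext_one (k := 2 * Real.pi) hD hab T.aA
    (fun t w h => (tu_per N T t w h).1) hA₁ (fun t w h1 h2 h3 h4 h5 => (heq t w h1 h2 h3 h4 h5).1)
  obtain ⟨P', hP', hP'1, hP'2⟩ := ext_one (k := 0) hD hab T.aP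
    (fun t w h => by rw [(tu_per N T t w h).2, add_zero]) hP₁
    (fun t w h1 h2 h3 h4 h5 => (heq t w h1 h2 h3 h4 h5).2)
  refine ⟨A', P', ?_, fun t w h => ⟨hA'1 t w h, hP'1 t w h⟩⟩
  refine ⟨isOpen_Dc _ _ _ _ _ _ _, ?_, ?_, ?_, hA', hP', ?_⟩
  · intro t w
    constructor
    · rintro ⟨h1, h2⟩
      refine ⟨h1, ?_⟩
      rcases h2 with h2 | ⟨h2, h3, h4, m, hm⟩
      · exact Or.inl (by simpa using h2)
      · refine Or.inr ⟨h2, by simpa using h3, by simpa using h4, m + 1, ?_⟩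
        have e : (t + 1).re - x' - ((m + 1 : ℤ) : ℝ) = t.re - x' - m := by
          push_cast
          rw [add_re, one_re]; ring
        show |(t + 1).re - x' - ((m + 1 : ℤ) : ℝ)| < D
        rw [e]; exact hm
    · rintro ⟨h1, h2⟩
      refine ⟨h1, ?_⟩
      rcases h2 with h2 | ⟨h2, h3, h4, m, hm⟩
      · exact Or.inl (by simpa using h2)
      · refine Or.inr ⟨h2, by simpa using h3, by simpa using h4, m - 1, ?_⟩
        have e : t.re - x' - ((m - 1 : ℤ) : ℝ) = (t + 1).re - x' - m := by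
          push_cast
          rw [add_re, one_re]; ring
        show |t.re - x' - ((m - 1 : ℤ) : ℝ)| < D
        rw [e]; exact hm
  · rintro t w ⟨h1, h2⟩ s ⟨hs0, hs1⟩
    refine ⟨h1, ?_⟩
    have him : ((t.re : ℂ) + s * t.im * I).im = s * t.im := by simp
    have hre : ((t.re : ℂ) + s * t.im * I).re = t.re := by simp
    simp only [] at h1 h2
    rcases h2 with h2 | ⟨h2, h3, h4, m, hm⟩
    · refine Or.inl ?_
      show |((t.re : ℂ) + s * t.im * I).im| < b₀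
      rw [him, abs_mul, abs_of_nonneg hs0]
      have : s * |t.im| ≤ 1 * |t.im| := mul_le_mul_of_nonneg_right hs1 (abs_nonneg _)
      linarith
    · by_cases hneg : t.im < 0
      · refine Or.inl ?_
        show |((t.re : ℂ) + s * t.im * I).im| < b₀
        rw [him, abs_mul, abs_of_nonneg hs0, abs_of_neg hneg]
        have : s * (-t.im) ≤ 1 * (-t.im) := mul_le_mul_of_nonneg_right hs1 (by linarith)
        linarith
      · push Not at hneg
        have h5 : s * t.im ≤ 1 * t.im := mul_le_mul_of_nonneg_right hs1 hneg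
        have h6 : 0 ≤ s * t.im := mul_nonneg hs0 hneg
        refine Or.inr ⟨h2, ?_, ?_, m, ?_⟩
        · show -b₀ < ((t.re : ℂ) + s * t.im * I).im
          rw [him]; linarith
        · show ((t.re : ℂ) + s * t.im * I).im < b₁
          rw [him]; linarith
        · show |((t.re : ℂ) + s * t.im * I).re - x' - m| < D
          rw [hre]; exact hm
  · intro x s hs
    refine ⟨?_, Or.inl (by simpa using hb₀)⟩
    show ‖(s : ℂ)‖ < ρ
    rw [norm_real, Real.norm_eq_abs]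
    linarith
  · intro t
    have h1 : ∀ᶠ u : ℂ × ℂ in 𝓝 ((t : ℂ), (0 : ℂ)), |u.1.im| < b₀ :=
      (isOpen_lt (f := fun u : ℂ × ℂ => |u.1.im|) (by fun_prop) continuous_const).mem_nhds
        (by simpa using hb₀)
    filter_upwards [h1, T.eq t] with u g1 g2
    rw [← g2.1, ← g2.2]
    exact ⟨hA'1 u.1 u.2 g1, hP'1 u.1 u.2 g1⟩

end Vale.Agent.P097.H456.Sp
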