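import Vale.Agent.P097.H456.Sp.Step
import Vale.Agent.P097.H456.Sp.Dom

/-! # P097 / Row Sp: assembly -/

set_option linter.all false

open Complex Metric Set Filter Topology

namespace Vale.Agent.P097.H456.Sp

open Vale.Agent.P097 Vale.Agent.P097.TA Vale.Agent.P097.H202 Vale.Agent.P097.SC
open Vale.Agent.P097.H456.Fct Vale.Agent.P097.CD

/-- the points of the column are good -/
theorem gd_col {κ Λ : ℝ} {H Φ : ℂ → ℂ} {r e : ℝ} {α p : ℂ → ℂ → ℂ} {J : ℂ → ℂ}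
    (N : Lines κ Λ H Φ r e α p J) {b₀ ρ x' D al b₁ u ε : ℝ} {A P A₁ P₁ : ℂ × ℂ → ℂ}
    (T : Tu α p b₀ ρ A P) (hab : al < b₀)
    (hA₁ : AnalyticOnNhd ℂ A₁ (Cl x' D al b₁ ×ˢ ball (u : ℂ) ε))
    (hP₁ : AnalyticOnNhd ℂ P₁ (Cl x' D al b₁ ×ˢ ball (u : ℂ) ε))
    (heq : ∀ t w : ℂ, |t.re - x'| < D → al < t.im → t.im < b₀ → w ∈ ball (u : ℂ) ε → ‖w‖ < ρ →
      A₁ (t, w) = A (t, w) ∧ P₁ (t, w) = P (t, w)) {v : ℝ} (hv : |v| < ρ)
    (hvu : (v : ℂ) ∈ ball (u : ℂ) ε) {c : ℝ} (hc : b₀ ≤ c) (hc1 : c < b₁) {a s : ℂ → ℂ}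
    (ha : AnalyticOnNhd ℂ a (Sr b₀ c)) (hs : AnalyticOnNhd ℂ s (Sr b₀ c))
    (hag : ∀ t : ℂ, |t.im| < b₀ → a t = A (t, v) ∧ s t = P (t, v)) {x : ℝ} {m : ℤ}
    (hm : |x - x' - m| < D) : Gd c a s x := by
  have hb₀ := T.y0
  have hvn : ‖(v : ℂ)‖ < ρ := by rw [norm_real, Real.norm_eq_abs]; exact hv
  set K : Set ℂ := {t : ℂ | |t.re - (x' + m)| < D ∧ (max al (-b₀) < t.im ∧ t.im < c)} with hK
  have hKo : IsOpen K := by
    refine (isOpen_lt (f := fun t : ℂ => |t.re - (x' + m)|) (by fun_prop) continuous_const).inter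
      ((isOpen_lt continuous_const continuous_im).inter (isOpen_lt continuous_im continuous_const))
  have hKc : Convex ℝ K := by
    have h1 : Convex ℝ {t : ℂ | |t.re - (x' + m)| < D} := by
      have e : {t : ℂ | |t.re - (x' + m)| < D} =
          {t : ℂ | (x' + m) - D < t.re} ∩ {t : ℂ | t.re < (x' + m) + D} := by
        ext t
        simp only [mem_setOf_eq, mem_inter_iff, abs_lt]
        constructor
        · rintro ⟨h1, h2⟩; exact ⟨by linarith, by linarith⟩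
        · rintro ⟨h1, h2⟩; exact ⟨by linarith, by linarith⟩
      rw [e]
      exact (convex_halfSpace_re_gt _).inter (convex_halfSpace_re_lt _)
    exact h1.inter ((convex_halfSpace_im_gt _).inter (convex_halfSpace_im_lt _))
  have hcol : ∀ t : ℂ, |t.re - (x' + m)| < D → al < t.im → t.im < b₁ →
      (t - m, (v : ℂ)) ∈ Cl x' D al b₁ ×ˢ ball (u : ℂ) ε := by
    intro t h1 h2 h3
    refine ⟨⟨?_, by simpa using h2, by simpa using h3⟩, hvu⟩
    rw [sub_re, intCast_re, show t.re - (m : ℝ) - x' = t.re - (x' + m) by ring]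
    exact h1
  have an1 : ∀ {f : ℂ × ℂ → ℂ}, AnalyticOnNhd ℂ f (Cl x' D al b₁ ×ˢ ball (u : ℂ) ε) →
      ∀ t : ℂ, |t.re - (x' + m)| < D → al < t.im → t.im < b₁ →
      AnalyticAt ℂ (fun t => f (t - m, (v : ℂ))) t := fun hf t h1 h2 h3 =>
    (hf _ (hcol t h1 h2 h3)).comp_of_eq (f := fun t : ℂ => (t - m, (v : ℂ)))
      ((analyticAt_id.sub analyticAt_const).prod analyticAt_const) rfl
  set a' : ℂ → ℂ := fun t => A₁ (t - m, (v : ℂ)) + m * (2 * Real.pi) with ha'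
  set s' : ℂ → ℂ := fun t => P₁ (t - m, (v : ℂ)) with hs'
  -- equality at low points
  have hlow : ∀ t : ℂ, |t.re - (x' + m)| < D → al < t.im → -b₀ < t.im → t.im < b₀ →
      a' t = a t ∧ s' t = s t := by
    intro t h1 h2 h3 h4
    have h5 : |t.im| < b₀ := abs_lt.2 ⟨h3, h4⟩
    have h6 := heq (t - m) v (by
      rw [sub_re, intCast_re, show t.re - (m : ℝ) - x' = t.re - (x' + m) by ring]
      exact h1) (by simpa using h2) (by simpa using h4) hvu hvn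
    have h7 := int_per (f := A) (k := 2 * Real.pi) (w := v) (b₀ := b₀)
      (fun t ht => (tu_per N T t v ⟨ht, hvn⟩).1) m (t - m) (by simpa using h5)
    have h8 := int_per (f := P) (k := 0) (w := v) (b₀ := b₀)
      (fun t ht => by rw [(tu_per N T t v ⟨ht, hvn⟩).2, add_zero]) m (t - m) (by simpa using h5)
    rw [sub_add_cancel] at h7 h8
    rw [(hag t h5).1, (hag t h5).2, h7, h8, ← h6.1, ← h6.2]
    exact ⟨rfl, by simp only [hs', mul_zero, add_zero]⟩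
  have hmax : max al (-b₀) < b₀ := max_lt hab (by linarith)
  obtain ⟨y, hy1, hy2⟩ := exists_between hmax
  have hyK : ((x : ℂ) + y * I) ∈ K := by
    refine ⟨?_, ?_, ?_⟩
    · show |((x : ℂ) + y * I).re - (x' + m)| < D
      have e : ((x : ℂ) + y * I).re - (x' + m) = x - x' - m := by simp; ring
      rw [e]; exact hm
    · show max al (-b₀) < ((x : ℂ) + y * I).im
      simpa using hy1
    · show ((x : ℂ) + y * I).im < c
      have : ((x : ℂ) + y * I).im = y := by simp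
      rw [this]; linarith
  have hyim : ((x : ℂ) + y * I).im = y := by simp
  have hnear : ∀ᶠ t in 𝓝 ((x : ℂ) + y * I), a' t = a t ∧ s' t = s t := by
    have g1 : ∀ᶠ t in 𝓝 ((x : ℂ) + y * I), t.im < b₀ :=
      (isOpen_lt continuous_im continuous_const).mem_nhds (by rw [mem_setOf_eq, hyim]; exact hy2)
    filter_upwards [hKo.mem_nhds hyK, g1] with t ht1 ht2
    exact hlow t ht1.1 ((le_max_left _ _).trans_lt ht1.2.1) ((le_max_right _ _).trans_lt ht1.2.1) ht2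
  have hKS : K ⊆ Sr b₀ c := fun t ht => ⟨(le_max_right _ _).trans_lt ht.2.1, ht.2.2⟩
  have e1 : EqOn a' a K := by
    refine AnalyticOnNhd.eqOn_of_preconnected_of_eventuallyEq (fun t ht => ?_) (ha.mono hKS)
      hKc.isPreconnected hyK (hnear.mono fun t ht => ht.1)
    exact (an1 hA₁ t ht.1 ((le_max_left _ _).trans_lt ht.2.1) (ht.2.2.trans hc1)).add analyticAt_const
  have e2 : EqOn s' s K := by
    refine AnalyticOnNhd.eqOn_of_preconnected_of_eventuallyEq (fun t ht => ?_) (hs.mono hKS)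
      hKc.isPreconnected hyK (hnear.mono fun t ht => ht.2)
    exact an1 hP₁ t ht.1 ((le_max_left _ _).trans_lt ht.2.1) (ht.2.2.trans hc1)
  -- the ball
  set R : ℝ := min (D - |x - x' - m|) (min (c - max al (-b₀)) (b₁ - c)) with hR
  have hR0 : 0 < R := lt_min (by linarith) (lt_min (by linarith) (by linarith))
  have hR1 : R ≤ D - |x - x' - m| := min_le_left _ _
  have hR2 : R ≤ c - max al (-b₀) := (min_le_right _ _).trans (min_le_left _ _)
  have hR3 : R ≤ b₁ - c := (min_le_right _ _).trans (min_le_right _ _)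
  have hball : ∀ t ∈ ball ((x : ℂ) + c * I) R, |t.re - (x' + m)| < D ∧ max al (-b₀) < t.im ∧
      t.im < b₁ := by
    intro t ht
    rw [mem_ball, dist_eq_norm] at ht
    have h1 := (abs_re_le_norm (t - ((x : ℂ) + c * I))).trans_lt ht
    have h2 := (abs_im_le_norm (t - ((x : ℂ) + c * I))).trans_lt ht
    have f1 : (t - ((x : ℂ) + c * I)).re = t.re - x := by simp
    have f2 : (t - ((x : ℂ) + c * I)).im = t.im - c := by simp
    rw [f1] at h1
    rw [f2] at h2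
    have h3 := abs_lt.1 h2
    refine ⟨?_, by linarith [h3.1], by linarith [h3.2]⟩
    have h4 := abs_add_le (t.re - x) (x - x' - m)
    rw [show t.re - (x' + m) = t.re - x + (x - x' - m) by ring]
    linarith
  refine ⟨R, hR0, a', s', fun t ht => ?_, fun t ht => ?_, fun t ht htc => ?_⟩
  · obtain ⟨h1, h2, h3⟩ := hball t ht
    exact (an1 hA₁ t h1 ((le_max_left _ _).trans_lt h2) h3).add analyticAt_const
  · obtain ⟨h1, h2, h3⟩ := hball t ht
    exact an1 hP₁ t h1 ((le_max_left _ _).trans_lt h2) h3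
  · obtain ⟨h1, h2, h3⟩ := hball t ht
    exact ⟨e1 ⟨h1, h2, htc⟩, e2 ⟨h1, h2, htc⟩⟩

/-- **all points of the line are good** -/
theorem gd_all (hF : FCT) {κ Λ : ℝ} {H Φ : ℂ → ℂ} {r e : ℝ} {α p : ℂ → ℂ → ℂ} {J F q Q : ℂ → ℂ}
    (hE : En κ Λ H Φ r e α p J F q) (hB : Bs Λ F q Q) {r₀ e₀ C₁ : ℝ} {θ₀ : ℂ × ℂ → ℂ}
    (L : H324.CD.Loc κ r e r₀ e₀ C₁ H α p F q θ₀)
    {b₀ ρ x' D al b₁ u ε : ℝ} {A P A₁ P₁ : ℂ × ℂ → ℂ}
    (T : Tu α p b₀ ρ A P) (hD : D ≤ 1 / 2) (hab : al < b₀)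
    (hA₁ : AnalyticOnNhd ℂ A₁ (Cl x' D al b₁ ×ˢ ball (u : ℂ) ε))
    (hP₁ : AnalyticOnNhd ℂ P₁ (Cl x' D al b₁ ×ˢ ball (u : ℂ) ε))
    (heq : ∀ t w : ℂ, |t.re - x'| < D → al < t.im → t.im < b₀ → w ∈ ball (u : ℂ) ε → ‖w‖ < ρ →
      A₁ (t, w) = A (t, w) ∧ P₁ (t, w) = P (t, w)) {v : ℝ} (hv0 : 0 < v) (hvD : v < D)
    (hve : v < e₀) (hvρ : v < ρ)
    (hvu : (v : ℂ) ∈ ball (u : ℂ) ε) {c : ℝ} (hc : b₀ ≤ c) (hc1 : c < b₁) {a s : ℂ → ℂ}
    (ha : AnalyticOnNhd ℂ a (Sr b₀ c)) (hs : AnalyticOnNhd ℂ s (Sr b₀ c))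
    (hag : ∀ t : ℂ, |t.im| < b₀ → a t = A (t, v) ∧ s t = P (t, v)) (x : ℝ) : Gd c a s x := by
  have N := hE.ctx.ln
  have hb₀ := T.y0
  have hvabs : |v| = v := abs_of_pos hv0
  obtain ⟨θ, hθ⟩ := exists_pos hE hB L T (by rwa [hvabs]) (by rwa [hvabs]) hc ha hs hag
  have hcol : ∀ (x : ℝ) (m : ℤ), |x - x' - m| < D → Gd c a s x := fun x m hm =>
    gd_col N T hab hA₁ hP₁ heq (by rwa [hvabs]) hvu hc hc1 ha hs hag hm
  obtain ⟨A', P', R, hR⟩ := exists_Rg N T hD hab hA₁ hP₁ heq (v := v) (by rwa [hvabs])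
  have hvn : ‖(v : ℂ)‖ < ρ := by rw [norm_real, Real.norm_eq_abs, hvabs]; exact hvρ
  have hmemD : ∀ (y : ℝ) (m : ℤ), |y - x' - m| < D →
      ((y : ℂ) + c * I, (v : ℂ)) ∈ Dc b₀ ρ x' D b₁ u ε := by
    intro y m hm
    refine ⟨hvn, Or.inr ⟨hvu, ?_, ?_, m, ?_⟩⟩
    · show -b₀ < ((y : ℂ) + c * I).im
      simp; linarith
    · show ((y : ℂ) + c * I).im < b₁
      simpa using hc1
    · show |((y : ℂ) + c * I).re - x' - m| < D
      simpa using hm
  -- the base point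
  set m : ℤ := ⌊x - x'⌋ with hm
  set k : ℕ := ⌊(x - x' - m) / v⌋₊ with hk
  have hm0 : 0 ≤ x - x' - m := by linarith [Int.floor_le (x - x')]
  have hk1 : (k : ℝ) ≤ (x - x' - m) / v := Nat.floor_le (by positivity)
  have hk2 : (x - x' - m) / v < k + 1 := Nat.lt_floor_add_one _
  rw [le_div_iff₀ hv0] at hk1
  rw [div_lt_iff₀ hv0] at hk2
  set xb : ℝ := x - k * v with hxb
  have hxb0 : 0 ≤ xb - x' - m := by rw [hxb]; linarith
  have hxb1 : xb - x' - m < v := by rw [hxb]; nlinarith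
  have hbase : |xb - x' - m| < D := by rw [abs_of_nonneg hxb0]; linarith
  -- the chain
  have hchain : ∀ i : ℕ, Gd c a s (xb + i * v) := by
    intro i
    induction i with
    | zero => simpa using hcol xb m hbase
    | succ i ih =>
      set n : ℕ := ⌊((i : ℝ) + 2) / v⌋₊ with hn
      have hn1 : (n : ℝ) ≤ ((i : ℝ) + 2) / v := Nat.floor_le (by positivity)
      have hn2 : ((i : ℝ) + 2) / v < n + 1 := Nat.lt_floor_add_one _
      have hin : i + 1 ≤ n := by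
        have h1 : ((i : ℝ) + 1) ≤ ((i : ℝ) + 2) / v := by
          rw [le_div_iff₀ hv0]
          have h2 : ((i : ℝ) + 1) * v ≤ ((i : ℝ) + 1) * 1 := by
            refine mul_le_mul_of_nonneg_left (by linarith) (by positivity)
          linarith
        rw [hn]
        refine Nat.le_floor ?_
        push_cast
        exact h1
      rw [le_div_iff₀ hv0] at hn1
      rw [div_lt_iff₀ hv0] at hn2
      set x₁ : ℝ := xb + ((i + 1 : ℕ) : ℝ) * v with hx₁
      set t₁ : ℂ := (x₁ : ℂ) + c * I with ht₁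
      have e1 : t₁ - ((i + 1 : ℕ) : ℂ) * v = (xb : ℂ) + c * I := by
        rw [ht₁, hx₁]; push_cast; ring
      have e2 : t₁ - ((i + 1 : ℕ) : ℂ) * v + n * v = ((xb + n * v : ℝ) : ℂ) + c * I := by
        rw [e1]; push_cast; ring
      have hre : t₁.re = x₁ := by simp [ht₁]
      have h0 : (t₁ - ((i + 1 : ℕ) : ℂ) * v, (v : ℂ)) ∈ Dc b₀ ρ x' D b₁ u ε := by
        rw [e1]; exact hmemD xb m hbase
      have h1 : (t₁ - ((i + 1 : ℕ) : ℂ) * v + n * v, (v : ℂ)) ∈ Dc b₀ ρ x' D b₁ u ε := by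
        rw [e2]
        refine hmemD (xb + n * v) (m + (i + 2)) ?_
        push_cast
        rw [abs_lt]
        constructor
        · nlinarith
        · nlinarith
      obtain ⟨U, hU, hUc, hUs, MZ, MP, mZ, mP, hM⟩ := fct_slice hF hE.ctx hE.na R hin h0 h1
      rw [hre] at hUs hM
      refine step (Edge.ent_of_Bs hB) hb₀ hc ha hs hθ ?_ hU hUc hUs mZ mP ?_
      · have e3 : x₁ - v = xb + i * v := by rw [hx₁]; push_cast; ring
        rw [e3]; exact ih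
      · have g1 : ∀ᶠ t in 𝓝[≠] (x₁ : ℂ), |t.im| < b₀ :=
          nhdsWithin_le_nhds ((isOpen_lt (f := fun t : ℂ => |t.im|) (by fun_prop)
            continuous_const).mem_nhds (by simpa using hb₀))
        filter_upwards [hM, g1] with t h2 h3
        rw [h2.1, h2.2, (hR t v h3).1, (hR t v h3).2, (hag t h3).1, (hag t h3).2]
        exact ⟨rfl, rfl⟩
  have h := hchain k
  rwa [show xb + k * v = x by rw [hxb]; ring] at h

/-- **Row Sp** from the two abstract rows and FCT -/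
theorem rowSp_of (hF : FCT) (hJ : SpJ) (hR : SpR) : CD.RowSp := by
  intro κ Λ H Φ r e α p J F q Q hE hB
  obtain ⟨r₀, e₀, C₁, θ₀, L⟩ := H324.CD.exists_loc hE
  have he₀ := L.e0
  refine ⟨min (e₀ / 2) (1 / 8), lt_min (by positivity) (by norm_num), ?_⟩
  intro b₀ ρ A P T x' D al b₁ u ε A₁ P₁ hu huD huρ hue hε hab hbb hA₁ hP₁ heq b hb
  have N := hE.ctx.ln
  have hb₀ := T.y0
  have hue1 : u ≤ e₀ / 2 := hue.trans (min_le_left _ _)
  have hue2 : u ≤ 1 / 8 := hue.trans (min_le_right _ _)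
  set D' : ℝ := min D (1 / 2) with hD'
  have hD'1 : D' ≤ D := min_le_left _ _
  have hD'2 : D' ≤ 1 / 2 := min_le_right _ _
  have huD' : u < D' := lt_min huD (by linarith)
  set ε₀ : ℝ := min ε (min u (min (D' - u) (min (ρ - u) (e₀ / 2)))) with hε₀
  have k1 : ε₀ ≤ ε := min_le_left _ _
  have k2 : ε₀ ≤ u := (min_le_right _ _).trans (min_le_left _ _)
  have k3 : ε₀ ≤ D' - u := (min_le_right _ _).trans ((min_le_right _ _).trans (min_le_left _ _))
  have k4 : ε₀ ≤ ρ - u := (min_le_right _ _).trans ((min_le_right _ _).trans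
    ((min_le_right _ _).trans (min_le_left _ _)))
  have k5 : ε₀ ≤ e₀ / 2 := (min_le_right _ _).trans ((min_le_right _ _).trans
    ((min_le_right _ _).trans (min_le_right _ _)))
  have k0 : 0 < ε₀ := lt_min hε (lt_min hu (lt_min (by linarith) (lt_min (by linarith)
    (by positivity))))
  have hClsub : Cl x' D' al b₁ ×ˢ ball (u : ℂ) ε ⊆
      {t : ℂ | |t.re - x'| < D ∧ al < t.im ∧ t.im < b₁} ×ˢ ball (u : ℂ) ε :=
    prod_mono (fun t ht => ⟨lt_of_lt_of_le ht.1 hD'1, ht.2⟩) Subset.rfl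
  have heq' : ∀ t w : ℂ, |t.re - x'| < D' → al < t.im → t.im < b₀ → w ∈ ball (u : ℂ) ε →
      ‖w‖ < ρ → A₁ (t, w) = A (t, w) ∧ P₁ (t, w) = P (t, w) := fun t w h1 h2 h3 h4 h5 =>
    heq t w (lt_of_lt_of_le h1 hD'1) h2 h3 h4 h5
  have hwρ : ∀ w ∈ ball (u : ℂ) ε₀, ‖w‖ < ρ := by
    intro w hw
    rw [mem_ball, dist_eq_norm] at hw
    have h1 := norm_le_norm_add_norm_sub' w (u : ℂ)
    rw [norm_real, Real.norm_eq_abs, abs_of_pos hu] at h1
    linarith
  -- the slices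
  have hsl : ∀ v : ℝ, |v - u| < ε₀ → ∃ a s : ℂ → ℂ, AnalyticOnNhd ℂ a (Sr b₀ b₁) ∧
      AnalyticOnNhd ℂ s (Sr b₀ b₁) ∧ ∀ t : ℂ, |t.im| < b₀ → a t = A (t, v) ∧ s t = P (t, v) := by
    intro v hv
    have hv' := abs_lt.1 hv
    have hv0 : 0 < v := by linarith [hv'.1]
    have hvD : v < D' := by linarith [hv'.2]
    have hve : v < e₀ := by linarith [hv'.2]
    have hvρ : v < ρ := by linarith [hv'.2]
    have hvu : (v : ℂ) ∈ ball (u : ℂ) ε := by
      rw [mem_ball, dist_eq_norm, ← ofReal_sub, norm_real, Real.norm_eq_abs]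
      linarith
    have hvn : ‖(v : ℂ)‖ < ρ := by rw [norm_real, Real.norm_eq_abs, abs_of_pos hv0]; exact hvρ
    have an : ∀ {f : ℂ × ℂ → ℂ}, AnalyticOnNhd ℂ f (Tb b₀ ρ) →
        AnalyticOnNhd ℂ (fun t => f (t, (v : ℂ))) {t : ℂ | |t.im| < b₀} := fun hf t ht =>
      (hf (t, (v : ℂ)) ⟨ht, hvn⟩).comp_of_eq (f := fun t : ℂ => (t, (v : ℂ)))
        (analyticAt_id.prod analyticAt_const) rfl
    obtain ⟨a, s, ha, hs, -, -, hag⟩ := hR (f := fun t => A (t, (v : ℂ)))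
      (g := fun t => P (t, (v : ℂ))) (k := 2 * Real.pi) (k' := 0) hb₀ hbb (an T.aA) (an T.aP)
      (fun t ht => (tu_per N T t v ⟨ht, hvn⟩).1)
      (fun t ht => by simp only [(tu_per N T t v ⟨ht, hvn⟩).2, add_zero])
      (fun c hc hc1 a s ha hs _ _ hag x => gd_all hF hE hB L T hD'2 hab (hA₁.mono hClsub)
        (hP₁.mono hClsub) heq' hv0 hvD hve hvρ hvu hc hc1 ha hs hag x)
    exact ⟨a, s, ha, hs, hag⟩
  -- the joint extension
  have anJ : ∀ {f : ℂ × ℂ → ℂ}, AnalyticOnNhd ℂ f (Tb b₀ ρ) →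
      AnalyticOnNhd ℂ f ({t : ℂ | |t.im| < b₀} ×ˢ ball (u : ℂ) ε₀) := fun hf u hu =>
    hf u ⟨hu.1, hwρ _ hu.2⟩
  have hbm : max b b₀ < b₁ := max_lt hb hbb
  obtain ⟨εA, hεA, -, GA, hGA, hGA'⟩ := hJ (f := A) (b := max b b₀) (k := 2 * Real.pi) hb₀
    (le_max_right _ _) hbm k0 (anJ T.aA) (fun t w h1 h2 => (tu_per N T t w ⟨h1, hwρ w h2⟩).1)
    (fun v hv => by
      obtain ⟨a, s, ha, hs, hag⟩ := hsl v hv
      exact ⟨a, ha, fun t ht => (hag t ht).1⟩)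
  obtain ⟨εP, hεP, -, GP, hGP, hGP'⟩ := hJ (f := P) (b := max b b₀) (k := 0) hb₀
    (le_max_right _ _) hbm k0 (anJ T.aP)
    (fun t w h1 h2 => by rw [(tu_per N T t w ⟨h1, hwρ w h2⟩).2, add_zero])
    (fun v hv => by
      obtain ⟨a, s, ha, hs, hag⟩ := hsl v hv
      exact ⟨s, hs, fun t ht => (hag t ht).2⟩)
  have hsub : ∀ {δ : ℝ}, min εA εP ≤ δ → {t : ℂ | -b₀ < t.im ∧ t.im < b} ×ˢ
      ball (u : ℂ) (min εA εP) ⊆ Sr b₀ (max b b₀) ×ˢ ball (u : ℂ) δ := fun hδ =>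
    prod_mono (fun t ht => ⟨ht.1, lt_of_lt_of_le ht.2 (le_max_left _ _)⟩) (ball_subset_ball hδ)
  refine ⟨min εA εP, lt_min hεA hεP, GA, GP, hGA.mono (hsub (min_le_left _ _)),
    hGP.mono (hsub (min_le_right _ _)), fun t w ht hw _ => ⟨?_, ?_⟩⟩
  · exact hGA' t w ht (ball_subset_ball (min_le_left _ _) hw)
  · exact hGP' t w ht (ball_subset_ball (min_le_right _ _) hw)

end Vale.Agent.P097.H456.Sp
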