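import Vale.Agent.P097.H456.Sp.Pos
import Vale.Agent.P097.H456.Edge.Slice

/-! # P097 / Row Sp: one step of the chain -/

set_option linter.all false

open Complex Metric Set Filter Topology

namespace Vale.Agent.P097.H456.Sp

open Vale.Agent.P097

/-- identity theorem for meromorphic functions -/
theorem mer_id {U : Set ℂ} (hU : IsPreconnected U) {f g : ℂ → ℂ} (hf : MeromorphicOn f U)
    (hg : MeromorphicOn g U) {x : ℂ} (hx : x ∈ U) (h : ∀ᶠ z in 𝓝[≠] x, f z = g z) {y : ℂ}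
    (hy : y ∈ U) : ∀ᶠ z in 𝓝[≠] y, f z = g z := by
  have hfg : MeromorphicOn (f - g) U := hf.sub hg
  have h1 : meromorphicOrderAt (f - g) x = ⊤ := by
    rw [meromorphicOrderAt_eq_top_iff]
    filter_upwards [h] with z hz
    simp [hz]
  have h2 : meromorphicOrderAt (f - g) y = ⊤ := by
    by_contra hne
    exact hfg.meromorphicOrderAt_ne_top_of_isPreconnected hU hy hx hne h1
  rw [meromorphicOrderAt_eq_top_iff] at h2
  filter_upwards [h2] with z hz
  simpa [sub_eq_zero] using hz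

/-- the pair `(a, s)` can be continued across the point `x + c i` of the top line -/
def Gd (c : ℝ) (a s : ℂ → ℂ) (x : ℝ) : Prop :=
  ∃ r > 0, ∃ a' s' : ℂ → ℂ, AnalyticOnNhd ℂ a' (ball ((x : ℂ) + c * I) r) ∧
    AnalyticOnNhd ℂ s' (ball ((x : ℂ) + c * I) r) ∧
    ∀ t ∈ ball ((x : ℂ) + c * I) r, t.im < c → a' t = a t ∧ s' t = s t

theorem eq_of_punct {f g : ℂ → ℂ} {x : ℂ} (hf : ContinuousAt f x) (hg : ContinuousAt g x)
    (h : ∀ᶠ z in 𝓝[≠] x, f z = g z) : f x = g x :=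
  tendsto_nhds_unique (hf.tendsto.mono_left nhdsWithin_le_nhds)
    ((hg.tendsto.mono_left nhdsWithin_le_nhds).congr' (by
      filter_upwards [h] with z hz using hz.symm))

/-- **one step** -/
theorem step {F q : ℂ → ℂ} {c' : ℂ} (E : Edge.Ent F q c') {v b₀ c : ℝ} (hb₀ : 0 < b₀)
    (hc : b₀ ≤ c) {a s θ : ℂ → ℂ} (ha : AnalyticOnNhd ℂ a (Sr b₀ c))
    (hs : AnalyticOnNhd ℂ s (Sr b₀ c)) (hP : Ps F q v b₀ c a s θ) {x : ℝ}
    (hg : Gd c a s (x - v)) {U : Set ℂ} (hU : IsOpen U) (hUc : Convex ℝ U)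
    (hseg : segment ℝ (x : ℂ) ((x : ℂ) + c * I) ⊆ U) {MZ MP : ℂ → ℂ} (mZ : MeromorphicOn MZ U)
    (mP : MeromorphicOn MP U)
    (hM : ∀ᶠ t in 𝓝[≠] (x : ℂ), MZ t = exp (I * a t) ∧ MP t = s t) : Gd c a s x := by
  obtain ⟨r, hr, a', s', ha', hs', hg'⟩ := hg
  set τ : ℂ := (x : ℂ) + c * I with hτ
  have hτim : τ.im = c := by simp [hτ]
  have hSo : IsOpen (U ∩ Sr b₀ c) := hU.inter (isOpen_Sr _ _)
  have hSc : Convex ℝ (U ∩ Sr b₀ c) := hUc.inter (convex_Sr _ _)
  have hxS : (x : ℂ) ∈ U ∩ Sr b₀ c := ⟨hseg (left_mem_segment _ _ _), Sr_of hc (by simpa using hb₀)⟩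
  -- step 1
  have aexp : AnalyticOnNhd ℂ (fun t => exp (I * a t)) (Sr b₀ c) := fun t ht =>
    (analyticAt_const.mul (ha t ht)).cexp
  have hrel : ∀ t ∈ U ∩ Sr b₀ c, ∀ᶠ z in 𝓝[≠] t, MZ z = exp (I * a z) ∧ MP z = s z := by
    intro t ht
    have h1 := mer_id hSc.isPreconnected (mZ.mono_set inter_subset_left)
      (fun z hz => (aexp z hz.2).meromorphicAt) hxS (hM.mono fun z hz => hz.1) ht
    have h2 := mer_id hSc.isPreconnected (mP.mono_set inter_subset_left)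
      (fun z hz => (hs z hz.2).meromorphicAt) hxS (hM.mono fun z hz => hz.2) ht
    exact h1.and h2
  -- step 2
  obtain ⟨r₁, hr₁, hr₁U⟩ := Metric.isOpen_iff.1 hU τ (hseg (right_mem_segment _ _ _))
  set r' : ℝ := min r (min r₁ b₀) with hr'
  have hr'0 : 0 < r' := lt_min hr (lt_min hr₁ hb₀)
  have hr'r : r' ≤ r := min_le_left _ _
  have hr'r₁ : r' ≤ r₁ := (min_le_right _ _).trans (min_le_left _ _)
  have hr'b : r' ≤ b₀ := (min_le_right _ _).trans (min_le_right _ _)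
  set B : Set ℂ := ball τ r' with hB
  have hBU : B ⊆ U := (ball_subset_ball hr'r₁).trans hr₁U
  have hBS : ∀ t ∈ B, t.im < c → t ∈ Sr b₀ c := by
    intro t ht htc
    refine ⟨?_, htc⟩
    rw [hB, mem_ball, dist_eq_norm] at ht
    have h1 := (abs_im_le_norm (t - τ)).trans_lt ht
    rw [sub_im, hτim, abs_lt] at h1
    linarith [h1.1]
  have hsh : ∀ t ∈ B, t - v ∈ ball (((x - v : ℝ) : ℂ) + c * I) r := by
    intro t ht
    rw [hB, mem_ball, dist_eq_norm] at ht
    rw [mem_ball, dist_eq_norm]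
    have e : t - (v : ℂ) - (((x - v : ℝ) : ℂ) + c * I) = t - τ := by
      rw [hτ]; push_cast; ring
    rw [e]
    linarith
  have dA : DifferentiableOn ℂ (fun t => a' (t - v)) B := fun t ht =>
    ((ha' _ (hsh t ht)).comp_of_eq (f := fun t : ℂ => t - (v : ℂ)) (x := t)
      (analyticAt_id.sub analyticAt_const) rfl).differentiableAt.differentiableWithinAt
  have dS : DifferentiableOn ℂ (fun t => s' (t - v)) B := fun t ht =>
    ((hs' _ (hsh t ht)).comp_of_eq (f := fun t : ℂ => t - (v : ℂ)) (x := t)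
      (analyticAt_id.sub analyticAt_const) rfl).differentiableAt.differentiableWithinAt
  -- step 3
  set t₂ : ℂ := τ - ((r' / 2 : ℝ) : ℂ) * I with ht₂
  have ht₂B : t₂ ∈ B := by
    rw [hB, mem_ball, dist_eq_norm, ht₂, sub_sub_cancel_left, norm_neg, norm_mul, norm_I, mul_one,
      norm_real, Real.norm_eq_abs, abs_of_pos (by positivity)]
    linarith
  have ht₂im : t₂.im < c := by
    have : t₂.im = c - r' / 2 := by
      rw [ht₂, sub_im, hτim]; simp
    rw [this]; linarith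
  have hcl : IsOpen {t : ℂ | t.im < c} := isOpen_lt continuous_im continuous_const
  have hev := hrel t₂ ⟨hBU ht₂B, hBS t₂ ht₂B ht₂im⟩
  rw [eventually_nhdsWithin_iff] at hev
  have hev2 : ∀ᶠ z in 𝓝 t₂, (z ∈ ({t₂} : Set ℂ)ᶜ → MZ z = exp (I * a z) ∧ MP z = s z) ∧ z ∈ B ∧
      z.im < c := by
    filter_upwards [hev, isOpen_ball.mem_nhds ht₂B, hcl.mem_nhds ht₂im] with z h1 h2 h3
      using ⟨h1, h2, h3⟩
  obtain ⟨δ, hδ, hδb⟩ := Metric.eventually_nhds_iff_ball.1 hev2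
  set V : Set ℂ := ball t₂ δ ∩ {t₂}ᶜ with hV
  have hVo : IsOpen V := isOpen_ball.inter isOpen_compl_singleton
  have hVB : V ⊆ B := fun z hz => (hδb z hz.1).2.1
  have hVc : ∀ z ∈ V, z.im < c := fun z hz => (hδb z hz.1).2.2
  have hVS : V ⊆ Sr b₀ c := fun z hz => hBS z (hVB hz) (hVc z hz)
  have hVr : ∀ z ∈ V, MZ z = exp (I * a z) ∧ MP z = s z := fun z hz => (hδb z hz.1).1 hz.2
  have hVn : V.Nonempty := by
    refine ⟨t₂ + ((δ / 2 : ℝ) : ℂ), ?_, ?_⟩
    · rw [mem_ball, dist_eq_norm, add_sub_cancel_left, norm_real, Real.norm_eq_abs,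
        abs_of_pos (by positivity)]
      linarith
    · show t₂ + ((δ / 2 : ℝ) : ℂ) ≠ t₂
      intro h
      have h1 : ((δ / 2 : ℝ) : ℂ) = 0 := by linear_combination h
      rw [ofReal_eq_zero] at h1
      linarith
  have hVa : ∀ z ∈ V, a' (z - v) = a (z - v) ∧ s' (z - v) = s (z - v) := fun z hz =>
    hg' (z - v) (hsh z (hVB hz)) (by simpa using hVc z hz)
  -- step 4
  obtain ⟨ρ, hρ, hρB, b, p', db, dp', hbp⟩ := Edge.slice (E := E) (B := B) isOpen_ball
    (convex_ball _ _).isPreconnected dA dS (fun t ht => mZ t (hBU ht)) (fun t ht => mP t (hBU ht))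
    hVo hVB (hP.dθ.mono hVS)
    (fun t ht => by
      rw [(hVr t ht).1, (hVa t ht).1]
      congr 2
      linear_combination hP.sA t (hVS ht))
    (fun t ht => by
      rw [(hVr t ht).2, (hVa t ht).2, (hVa t ht).1]
      linear_combination hP.sP t (hVS ht))
    (by
      obtain ⟨t, ht, h1, h2, h3⟩ := hP.gen E ha hVo hVn hVS
      refine ⟨t, ht, ?_, h2, h3⟩
      rw [(hVa t ht).1]
      exact h1)
    (mem_ball_self hr'0 : τ ∈ B)
  -- step 6
  set L : Set ℂ := ball τ ρ ∩ {t | t.im < c} with hL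
  have hLo : IsOpen L := isOpen_ball.inter hcl
  have hLc : Convex ℝ L := (convex_ball _ _).inter (convex_halfSpace_im_lt c)
  have hLS : ∀ t ∈ L, t ∈ U ∩ Sr b₀ c := fun t ht =>
    ⟨hBU (hρB ht.1), hBS t (hρB ht.1) ht.2⟩
  have ab : AnalyticOnNhd ℂ b (ball τ ρ) := db.analyticOnNhd isOpen_ball
  have ap : AnalyticOnNhd ℂ p' (ball τ ρ) := dp'.analyticOnNhd isOpen_ball
  have hkey : ∀ t ∈ L, exp (I * b t) = exp (I * a t) ∧ p' t = s t := by
    intro t ht
    have h1 := hrel t (hLS t ht)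
    have h2 : ∀ᶠ z in 𝓝[≠] t, z ∈ L ∧ z ≠ τ := by
      refine nhdsWithin_le_nhds ?_
      have h3 : t ≠ τ := by
        rintro rfl
        exact absurd ht.2 (by rw [mem_setOf_eq, hτim]; exact lt_irrefl _)
      exact inter_mem (hLo.mem_nhds ht) (isOpen_ne.mem_nhds h3)
    have h4 : ∀ᶠ z in 𝓝[≠] t, exp (I * b z) = exp (I * a z) ∧ p' z = s z := by
      filter_upwards [h1, h2] with z h5 h6
      have h7 := hbp z h6.1.1 h6.2
      exact ⟨by rw [← h7.1, h5.1], by rw [← h7.2, h5.2]⟩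
    refine ⟨eq_of_punct (f := fun z => exp (I * b z)) (g := fun z => exp (I * a z))
      ((analyticAt_const.mul (ab t ht.1)).cexp.continuousAt)
      ((aexp t (hLS t ht).2).continuousAt) (h4.mono fun z hz => hz.1), ?_⟩
    exact eq_of_punct (ap t ht.1).continuousAt (hs t (hLS t ht).2).continuousAt
      (h4.mono fun z hz => hz.2)
  -- step 7
  have hder : ∀ t ∈ L, HasDerivAt (fun t => b t - a t) 0 t := by
    intro t ht
    have h1 := (ab t ht.1).differentiableAt.hasDerivAt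
    have h2 := (ha t (hLS t ht).2).differentiableAt.hasDerivAt
    have h3 := (h1.const_mul I).cexp
    have h4 := (h2.const_mul I).cexp
    have h5 : (fun t => exp (I * b t)) =ᶠ[𝓝 t] fun t => exp (I * a t) := by
      filter_upwards [hLo.mem_nhds ht] with z hz using (hkey z hz).1
    have h6 := h3.unique (h4.congr_of_eventuallyEq h5)
    rw [(hkey t ht).1] at h6
    have h7 := mul_left_cancel₀ (exp_ne_zero _) h6
    have h8 := mul_left_cancel₀ I_ne_zero h7
    have h9 := h1.sub h2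
    rw [h8, sub_self] at h9
    exact h9
  have ht₃ : τ - ((ρ / 2 : ℝ) : ℂ) * I ∈ L := by
    refine ⟨?_, ?_⟩
    · rw [mem_ball, dist_eq_norm, sub_sub_cancel_left, norm_neg, norm_mul, norm_I, mul_one,
        norm_real, Real.norm_eq_abs, abs_of_pos (by positivity)]
      linarith
    · show (τ - ((ρ / 2 : ℝ) : ℂ) * I).im < c
      rw [sub_im, hτim]
      simp
      linarith
  obtain ⟨n, hn⟩ := Complex.exp_eq_exp_iff_exists_int.1 (hkey _ ht₃).1
  refine ⟨ρ, hρ, fun t => b t - n * (2 * Real.pi), p', fun t ht => (ab t ht).sub analyticAt_const,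
    ap, fun t ht htc => ⟨?_, (hkey t ⟨ht, htc⟩).2⟩⟩
  have h1 := H324.CD.const_of_deriv hLc hder ⟨ht, htc⟩ ht₃
  simp only [] at h1 ⊢
  have h2 : b (τ - ((ρ / 2 : ℝ) : ℂ) * I) - a (τ - ((ρ / 2 : ℝ) : ℂ) * I) = n * (2 * Real.pi) := by
    have h3 : I * (b (τ - ((ρ / 2 : ℝ) : ℂ) * I) - a (τ - ((ρ / 2 : ℝ) : ℂ) * I) -
        n * (2 * Real.pi)) = 0 := by linear_combination hn
    exact sub_eq_zero.1 ((mul_eq_zero.1 h3).resolve_left I_ne_zero)
  rw [h2] at h1
  linear_combination h1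

end Vale.Agent.P097.H456.Sp
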