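import Mathlib

/-!
# P097 / Row Sp: two abstract sub-rows (analysis only, no billiard)
-/

set_option linter.all false

open Complex Metric Filter Topology Set

namespace Vale.Agent.P097.H456.Sp

/-- the strip `-b₀ < Im t < c` -/
def Sr (b₀ c : ℝ) : Set ℂ := {t : ℂ | -b₀ < t.im ∧ t.im < c}

/-- **Row SpJ** : joint extension from real slices (`H877.Bd.hart` with `A = univ` at the centres
`x + i (c - σ / 2)`, radius `2 σ`, `σ = min (b₁ - b) b₀ / 2`, then `Sp.unif`, `Sp.glue2`, and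
induction on the number of steps `σ`) -/
def SpJ : Prop := ∀ {f : ℂ × ℂ → ℂ} {b₀ b b₁ u ε : ℝ} {k : ℂ}, 0 < b₀ → b₀ ≤ b → b < b₁ → 0 < ε →
  AnalyticOnNhd ℂ f ({t : ℂ | |t.im| < b₀} ×ˢ ball (u : ℂ) ε) →
  (∀ t w : ℂ, |t.im| < b₀ → w ∈ ball (u : ℂ) ε → f (t + 1, w) = f (t, w) + k) →
  (∀ v : ℝ, |v - u| < ε → ∃ g : ℂ → ℂ, AnalyticOnNhd ℂ g (Sr b₀ b₁) ∧
    ∀ t : ℂ, |t.im| < b₀ → g t = f (t, v)) →
  ∃ ε' > 0, ε' ≤ ε ∧ ∃ G : ℂ × ℂ → ℂ, AnalyticOnNhd ℂ G (Sr b₀ b ×ˢ ball (u : ℂ) ε') ∧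
    ∀ t w : ℂ, |t.im| < b₀ → w ∈ ball (u : ℂ) ε' → G (t, w) = f (t, w)

/-- **Row SpR** : if the pair can be continued across every point of every horizontal line which it
reaches, it can be continued to the whole strip (sup of the heights, compactness, gluing) -/
def SpR : Prop := ∀ {f g : ℂ → ℂ} {b₀ b₁ : ℝ} {k k' : ℂ}, 0 < b₀ → b₀ < b₁ →
  AnalyticOnNhd ℂ f {t : ℂ | |t.im| < b₀} → AnalyticOnNhd ℂ g {t : ℂ | |t.im| < b₀} →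
  (∀ t : ℂ, |t.im| < b₀ → f (t + 1) = f t + k) → (∀ t : ℂ, |t.im| < b₀ → g (t + 1) = g t + k') →
  (∀ c : ℝ, b₀ ≤ c → c < b₁ → ∀ a p : ℂ → ℂ, AnalyticOnNhd ℂ a (Sr b₀ c) →
    AnalyticOnNhd ℂ p (Sr b₀ c) → (∀ t ∈ Sr b₀ c, a (t + 1) = a t + k) →
    (∀ t ∈ Sr b₀ c, p (t + 1) = p t + k') → (∀ t : ℂ, |t.im| < b₀ → a t = f t ∧ p t = g t) →
    ∀ x : ℝ, ∃ r > 0, ∃ a' p' : ℂ → ℂ, AnalyticOnNhd ℂ a' (ball ((x : ℂ) + c * I) r) ∧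
      AnalyticOnNhd ℂ p' (ball ((x : ℂ) + c * I) r) ∧
      ∀ t ∈ ball ((x : ℂ) + c * I) r, t.im < c → a' t = a t ∧ p' t = p t) →
  ∃ a p : ℂ → ℂ, AnalyticOnNhd ℂ a (Sr b₀ b₁) ∧ AnalyticOnNhd ℂ p (Sr b₀ b₁) ∧
    (∀ t ∈ Sr b₀ b₁, a (t + 1) = a t + k) ∧ (∀ t ∈ Sr b₀ b₁, p (t + 1) = p t + k') ∧
    ∀ t : ℂ, |t.im| < b₀ → a t = f t ∧ p t = g t

end Vale.Agent.P097.H456.Sp
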