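import Vale.Agent.P097.H456.Sp.Defs
import Vale.Agent.P097.H456.Edge.Lift
import Vale.Agent.P097.H324.CD.P1b

/-! # P097 / Row Sp: vertex positions on strips, real labels -/

set_option linter.all false

open Complex Metric Set Filter Topology

namespace Vale.Agent.P097.H456.Sp

open Vale.Agent.P097 Vale.Agent.P097.TA Vale.Agent.P097.H202 Vale.Agent.P097.SC
open Vale.Agent.P097.H456.Fct Vale.Agent.P097.CD

theorem an_cos1 {f : ℂ → ℂ} {u : ℂ} (h : AnalyticAt ℂ f u) :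
    AnalyticAt ℂ (fun u => cos (f u)) u :=
  (differentiable_cos.analyticAt _).comp_of_eq h rfl

theorem isOpen_Sr (b c : ℝ) : IsOpen (Sr b c) :=
  (isOpen_lt continuous_const continuous_im).inter (isOpen_lt continuous_im continuous_const)

theorem convex_Sr (b c : ℝ) : Convex ℝ (Sr b c) :=
  (convex_halfSpace_im_gt (-b)).inter (convex_halfSpace_im_lt c)

theorem Sr_sub {b c : ℝ} {t : ℂ} (h : t ∈ Sr b c) (x : ℝ) : t - x ∈ Sr b c := by
  have h1 : -b < t.im := h.1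
  have h2 : t.im < c := h.2
  exact ⟨by simpa using h1, by simpa using h2⟩

theorem Sr_of {b c : ℝ} (hc : b ≤ c) {t : ℂ} (h : |t.im| < b) : t ∈ Sr b c := by
  have h1 := abs_lt.1 h
  exact ⟨h1.1, lt_of_lt_of_le h1.2 hc⟩

/-- position on a strip -/
structure Ps (F q : ℂ → ℂ) (v b₀ c : ℝ) (a p θ : ℂ → ℂ) : Prop where
  dθ : DifferentiableOn ℂ θ (Sr b₀ c)
  sA : ∀ t ∈ Sr b₀ c, a t + a (t - v) = 2 * F (θ t)
  sP : ∀ t ∈ Sr b₀ c, p t + p (t - v) = 2 * q (θ t) * cos (F (θ t) - a (t - v))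
  cs : ∃ t ∈ Sr b₀ c, cos (F (θ t) - a (t - v)) ≠ 0
  nd : ∃ t ∈ Sr b₀ c, deriv θ t ≠ 0

theorem an_shift {b c : ℝ} {f : ℂ → ℂ} (hf : AnalyticOnNhd ℂ f (Sr b c)) (x : ℝ) :
    AnalyticOnNhd ℂ (fun t => f (t - x)) (Sr b c) := fun t ht =>
  (hf _ (Sr_sub ht x)).comp_of_eq (analyticAt_id.sub analyticAt_const) rfl

/-- vertex positions on a strip, real label -/
theorem exists_pos {κ Λ : ℝ} {H Φ : ℂ → ℂ} {r e : ℝ} {α p : ℂ → ℂ → ℂ} {J F q Q : ℂ → ℂ}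
    (hE : En κ Λ H Φ r e α p J F q) (hB : Bs Λ F q Q) {r₀ e₀ C₁ : ℝ} {θ₀ : ℂ × ℂ → ℂ}
    (L : H324.CD.Loc κ r e r₀ e₀ C₁ H α p F q θ₀) {b₀ ρ : ℝ} {A P : ℂ × ℂ → ℂ}
    (T : Tu α p b₀ ρ A P) {v : ℝ} (hv : |v| < e₀) (hvρ : |v| < ρ) {c : ℝ} (hc : b₀ ≤ c)
    {a s : ℂ → ℂ} (ha : AnalyticOnNhd ℂ a (Sr b₀ c)) (hs : AnalyticOnNhd ℂ s (Sr b₀ c))
    (hag : ∀ t : ℂ, |t.im| < b₀ → a t = A (t, v) ∧ s t = P (t, v)) :
    ∃ θ, Ps F q v b₀ c a s θ := by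
  have N := hE.ctx.ln
  have hb₀ := T.y0
  have T' : Tu α p b₀ (min ρ e) A P :=
    { y0 := T.y0
      ρ0 := lt_min T.ρ0 N.he
      aA := T.aA.mono fun u hu => ⟨hu.1, lt_of_lt_of_le hu.2 (min_le_left _ _)⟩
      aP := T.aP.mono fun u hu => ⟨hu.1, lt_of_lt_of_le hu.2 (min_le_left _ _)⟩
      eq := T.eq }
  have hve : |v| < e := lt_of_lt_of_le hv L.ee
  have hm0 : 0 < min b₀ r := lt_min hb₀ N.hr
  have hline : ∀ t : ℂ, |t.im| < min b₀ r → a t = α t v ∧ s t = p t v := by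
    intro t ht
    have h1 := H324.CD.eq_lines N T' (min_le_right _ _) (t, (v : ℂ)) ⟨ht, by
      show ‖(v : ℂ)‖ < _
      rw [norm_real, Real.norm_eq_abs]
      exact lt_min hvρ hve⟩
    have h2 := hag t (lt_of_lt_of_le ht (min_le_left _ _))
    exact ⟨h2.1.trans h1.1, h2.2.trans h1.2⟩
  have ha' := an_shift ha v
  have hs' := an_shift hs v
  have hcos : AnalyticOnNhd ℂ (fun t => cos ((a t - a (t - v)) / 2)) (Sr b₀ c) := fun t ht =>
    an_cos1 (((ha t ht).sub (ha' t ht)).div_const)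
  have m1 : MeromorphicOn (fun t => exp (2 * I * ((a t + a (t - v)) / 2))) (Sr b₀ c) := fun t ht =>
    ((analyticAt_const.mul (((ha t ht).add (ha' t ht)).div_const)).cexp).meromorphicAt
  have m2 : MeromorphicOn (fun t => (s t + s (t - v)) / (2 * cos ((a t - a (t - v)) / 2)) *
      exp (-I * ((a t + a (t - v)) / 2))) (Sr b₀ c) := fun t ht =>
    (((hs t ht).add (hs' t ht)).meromorphicAt.div (analyticAt_const.mul (hcos t ht)).meromorphicAt).mul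
      ((analyticAt_const.mul (((ha t ht).add (ha' t ht)).div_const)).cexp).meromorphicAt
  have hvn : ‖(v : ℂ)‖ < e₀ := by rw [norm_real, Real.norm_eq_abs]; exact hv
  have z0 : ((v : ℂ) / 2) ∈ Sr b₀ c := Sr_of hc (by simpa using hb₀)
  have z0r : (0 : ℂ) ∈ Str r₀ := by
    show |(0 : ℂ).im| < _
    simpa using L.r0
  have slθ : AnalyticOnNhd ℂ (fun t => θ₀ (t, (v : ℂ))) (Str r₀) := by
    intro t ht
    exact (L.an (t, (v : ℂ)) ⟨ht, hvn⟩).comp_of_eq (f := fun t : ℂ => (t, (v : ℂ)))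
      (analyticAt_id.prod analyticAt_const) rfl
  have hnc : ¬ ∀ᶠ t in 𝓝 (0 : ℂ), θ₀ (t, (v : ℂ)) = θ₀ (0, (v : ℂ)) := by
    intro h
    have h2 := slθ.eqOn_of_preconnected_of_eventuallyEq (g := fun _ => θ₀ (0, (v : ℂ)))
      (fun _ _ => analyticAt_const) (convex_Str r₀).isPreconnected z0r h
    have h3 : (1 : ℂ) ∈ Str r₀ := by
      show |(1 : ℂ).im| < _
      simpa using L.r0
    have h4 : θ₀ (1, (v : ℂ)) = θ₀ (0, (v : ℂ)) := h2 h3
    have h5 := L.per 0 v ⟨by simpa using L.r0, hvn⟩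
    rw [zero_add, h4] at h5
    exact one_ne_zero (left_eq_add.1 h5)
  have ht0 : Tendsto (fun t : ℂ => t - (v : ℂ) / 2) (𝓝 ((v : ℂ) / 2)) (𝓝 0) := by
    have h : ContinuousAt (fun t : ℂ => t - (v : ℂ) / 2) ((v : ℂ) / 2) := by fun_prop
    simpa [ContinuousAt] using h
  have ht1 : Tendsto (fun t : ℂ => t + (v : ℂ) / 2) (𝓝 0) (𝓝 ((v : ℂ) / 2)) := by
    have h : ContinuousAt (fun t : ℂ => t + (v : ℂ) / 2) 0 := by fun_prop
    simpa [ContinuousAt] using h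
  set θb : ℂ → ℂ := fun t => θ₀ (t - (v : ℂ) / 2, (v : ℂ)) with hθb
  have aθb : AnalyticAt ℂ θb ((v : ℂ) / 2) :=
    (slθ 0 z0r).comp_of_eq (f := fun t : ℂ => t - (v : ℂ) / 2) (analyticAt_id.sub analyticAt_const)
      (by simp)
  have hnc' : ¬ ∀ᶠ t in 𝓝 ((v : ℂ) / 2), θb t = θb ((v : ℂ) / 2) := by
    intro h
    apply hnc
    filter_upwards [ht1.eventually h] with t ht
    simpa [hθb] using ht
  have hε : 0 < min r₀ (min b₀ r) := lt_min L.r0 hm0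
  have hloc : ∀ᶠ t in 𝓝 ((v : ℂ) / 2), a t + a (t - v) = 2 * F (θb t) ∧
      s t + s (t - v) = 2 * q (θb t) * cos ((a t - a (t - v)) / 2) ∧
      cos ((a t - a (t - v)) / 2) ≠ 0 := by
    filter_upwards [ht0.eventually (ball_mem_nhds (0 : ℂ) hε)] with t ht
    rw [dist_zero_right] at ht
    have h1 : ‖t - (v : ℂ) / 2‖ < r₀ := lt_of_lt_of_le ht (min_le_left _ _)
    have h2 : ‖t - (v : ℂ) / 2‖ < min b₀ r := lt_of_lt_of_le ht (min_le_right _ _)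
    have him : (t - (v : ℂ) / 2).im = t.im := by simp
    have him' : (t - (v : ℂ)).im = t.im := by simp
    have h3 := abs_im_le_norm (t - (v : ℂ) / 2)
    rw [him] at h3
    have h4 := hline t (by linarith)
    have h5 := hline (t - v) (by rw [him']; linarith)
    have h6 : (t - (v : ℂ) / 2, (v : ℂ)) ∈ Tb r₀ e₀ := ⟨by
      show |(t - (v : ℂ) / 2).im| < _
      rw [him]; linarith, hvn⟩
    have h7 := L.sA _ _ h6
    have h8 := L.sP _ _ h6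
    have h9 := L.cs _ _ h1 hvn
    have e1 : t - (v : ℂ) / 2 + v / 2 = t := by ring
    have e2 : t - (v : ℂ) / 2 - v / 2 = t - v := by ring
    rw [e1, e2] at h7 h8 h9
    rw [h4.1, h4.2, h5.1, h5.2]
    exact ⟨h7, h8, h9⟩
  have hev : ∀ᶠ t in 𝓝 ((v : ℂ) / 2), exp (2 * I * ((a t + a (t - v)) / 2)) =
        exp (2 * I * F (θb t)) ∧
      (s t + s (t - v)) / (2 * cos ((a t - a (t - v)) / 2)) * exp (-I * ((a t + a (t - v)) / 2)) =
        q (θb t) * exp (-I * F (θb t)) := by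
    filter_upwards [hloc] with t ht
    obtain ⟨h1, h2, h3⟩ := ht
    rw [h1, h2, show 2 * F (θb t) / 2 = F (θb t) by ring]
    refine ⟨rfl, ?_⟩
    congr 1
    generalize cos ((a t - a (t - v)) / 2) = c at h3 ⊢
    field_simp
  obtain ⟨θ, dθ, hθ⟩ := Edge.rowLift hB (isOpen_Sr b₀ c) (convex_Sr b₀ c) m1 m2 z0 aθb hnc' hev
  have aθ : AnalyticOnNhd ℂ θ (Sr b₀ c) := dθ.analyticOnNhd (isOpen_Sr _ _)
  have aF : AnalyticOnNhd ℂ (fun t => F (θ t)) (Sr b₀ c) := fun t ht =>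
    (hE.dF.analyticAt _).comp_of_eq (aθ t ht) rfl
  have aq : AnalyticOnNhd ℂ (fun t => q (θ t)) (Sr b₀ c) := fun t ht =>
    (hE.dq.analyticAt _).comp_of_eq (aθ t ht) rfl
  have pc := (convex_Sr b₀ c).isPreconnected
  have sA : ∀ t ∈ Sr b₀ c, a t + a (t - v) = 2 * F (θ t) := by
    intro t ht
    have h1 : AnalyticOnNhd ℂ (fun t => a t + a (t - v)) (Sr b₀ c) := ha.add ha'
    have h2 : AnalyticOnNhd ℂ (fun t => 2 * F (θ t)) (Sr b₀ c) := fun t ht =>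
      analyticAt_const.mul (aF t ht)
    refine h1.eqOn_of_preconnected_of_eventuallyEq h2 pc z0 ?_ ht
    filter_upwards [hloc, hθ] with t h3 h4
    rw [h3.1, h4]
  have hd : ∀ t ∈ Sr b₀ c, (a t - a (t - v)) / 2 = F (θ t) - a (t - v) := by
    intro t ht
    linear_combination (sA t ht) / 2
  refine ⟨θ, dθ, sA, ?_, ?_, ?_⟩
  · intro t ht
    have h1 : AnalyticOnNhd ℂ (fun t => s t + s (t - v)) (Sr b₀ c) := hs.add hs'
    have h2 : AnalyticOnNhd ℂ (fun t => 2 * q (θ t) * cos ((a t - a (t - v)) / 2)) (Sr b₀ c) :=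
      fun t ht => (analyticAt_const.mul (aq t ht)).mul (hcos t ht)
    have h3 := h1.eqOn_of_preconnected_of_eventuallyEq h2 pc z0 (by
      filter_upwards [hloc, hθ] with t h3 h4
      rw [h3.2.1, h4]) ht
    simp only [] at h3
    rw [h3, hd t ht]
  · refine ⟨_, z0, ?_⟩
    rw [← hd _ z0]
    exact hloc.self_of_nhds.2.2
  · by_contra hcon
    push Not at hcon
    apply hnc'
    have h1 : ∀ t ∈ Sr b₀ c, θ t = θ ((v : ℂ) / 2) := fun t ht =>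
      H324.CD.const_of_deriv (convex_Sr b₀ c) (fun z hz => by
        have h2 := (aθ z hz).differentiableAt.hasDerivAt
        rwa [hcon z hz] at h2) ht z0
    have h2 := hθ.self_of_nhds
    filter_upwards [hθ, (isOpen_Sr b₀ c).mem_nhds z0] with t h3 h4
    rw [← h3, ← h2, h1 t h4]

/-- generic points of a position -/
theorem Ps.gen {F q : ℂ → ℂ} {c' : ℂ} (E : Edge.Ent F q c') {v b₀ c : ℝ} {a p θ : ℂ → ℂ}
    (h : Ps F q v b₀ c a p θ) (ha : AnalyticOnNhd ℂ a (Sr b₀ c)) {V : Set ℂ} (hV : IsOpen V)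
    (hVn : V.Nonempty) (hVs : V ⊆ Sr b₀ c) :
    ∃ t ∈ V, cos (F (θ t) - a (t - v)) ≠ 0 ∧ q (θ t) ≠ 0 ∧ deriv θ t ≠ 0 := by
  have aθ : AnalyticOnNhd ℂ θ (Sr b₀ c) := h.dθ.analyticOnNhd (isOpen_Sr _ _)
  have pc := (convex_Sr b₀ c).isPreconnected
  have hne : ∀ {f : ℂ → ℂ}, AnalyticOnNhd ℂ f (Sr b₀ c) → (∃ t ∈ Sr b₀ c, f t ≠ 0) →
      ∀ {W : Set ℂ}, IsOpen W → W.Nonempty → W ⊆ Sr b₀ c → ∃ t ∈ W, f t ≠ 0 := by
    intro f hf hf0 W hW hWn hWs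
    by_contra hcon
    push Not at hcon
    obtain ⟨w, hw⟩ := hWn
    obtain ⟨t, ht, hft⟩ := hf0
    exact hft (hf.eqOn_zero_of_preconnected_of_eventuallyEq_zero pc (hWs hw)
      (by filter_upwards [hW.mem_nhds hw] with s hs using hcon s hs) ht)
  have acos : AnalyticOnNhd ℂ (fun t => cos (F (θ t) - a (t - v))) (Sr b₀ c) := fun t ht =>
    an_cos1 (((E.dΦ.analyticAt _).comp_of_eq (aθ t ht) rfl).sub (an_shift ha v t ht))
  obtain ⟨t₁, ht₁, hc₁⟩ := hne acos h.cs hV hVn hVs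
  set V' : Set ℂ := V ∩ {t | cos (F (θ t) - a (t - v)) ≠ 0} with hV'
  have hV'o : IsOpen V' := by
    rw [isOpen_iff_mem_nhds]
    rintro t ⟨ht, ht'⟩
    exact inter_mem (hV.mem_nhds ht) ((acos t (hVs ht)).continuousAt.eventually_ne ht')
  have hV's : V' ⊆ Sr b₀ c := fun t ht => hVs ht.1
  have hd := hne aθ.deriv h.nd hV'o ⟨t₁, ht₁, hc₁⟩ hV's
  obtain ⟨t, ht, -, h2, h3⟩ := Edge.generic E hV'o (h.dθ.mono hV's) hd
  exact ⟨t, ht.1, ht.2, h2, h3⟩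

end Vale.Agent.P097.H456.Sp
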