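import Vale.Agent.P097.H456.Sp.Quo
import Vale.Agent.P097.H456.Fct.Defs

/-! # P097 / Row Sp: meromorphic continuation of the inner lines along verticals (from FCT) -/

set_option linter.all false

open Complex Metric Set Filter Topology

namespace Vale.Agent.P097.H456.Sp

open Vale.Agent.P097 Vale.Agent.P097.TA Vale.Agent.P097.H202 Vale.Agent.P097.H456.Fct

/-- shift by `m` rotation numbers -/
def sh (m : ℕ) (u : ℂ × ℂ) : ℂ × ℂ := (u.1 + m * u.2, u.2)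

theorem sh_an (m : ℕ) (u : ℂ × ℂ) : AnalyticAt ℂ (sh m) u :=
  (analyticAt_fst.add (analyticAt_const.mul analyticAt_snd)).prod analyticAt_snd

theorem sh_cont (m : ℕ) : Continuous (sh m) := by unfold sh; fun_prop

/-- a region of regularity of the lines, for the real label `v` -/
structure Rg (α p : ℂ → ℂ → ℂ) (𝒟 : Set (ℂ × ℂ)) (v : ℝ) (A P : ℂ × ℂ → ℂ) : Prop where
  op : IsOpen 𝒟
  per : ∀ t w : ℂ, (t, w) ∈ 𝒟 ↔ (t + 1, w) ∈ 𝒟
  star : ∀ t w : ℂ, (t, w) ∈ 𝒟 → ∀ s ∈ Icc (0 : ℝ) 1, ((t.re : ℂ) + s * t.im * I, w) ∈ 𝒟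
  re : ∀ x s : ℝ, |s| ≤ |v| → ((x : ℂ), (s : ℂ)) ∈ 𝒟
  aA : AnalyticOnNhd ℂ A 𝒟
  aP : AnalyticOnNhd ℂ P 𝒟
  eq : ∀ t : ℝ, ∀ᶠ u in 𝓝 ((t : ℂ), (0 : ℂ)), A u = α u.1 u.2 ∧ P u = p u.1 u.2

/-- the pairs with both outer lines regular -/
def SS (𝒟 : Set (ℂ × ℂ)) (n : ℕ) : Set (ℂ × ℂ) := {u | u ∈ 𝒟 ∧ sh n u ∈ 𝒟}

section
variable {α p : ℂ → ℂ → ℂ} {𝒟 : Set (ℂ × ℂ)} {v : ℝ} {A P : ℂ × ℂ → ℂ}
  (R : Rg α p 𝒟 v A P) (n : ℕ)
include R

theorem Rg.isOpen_SS : IsOpen (SS 𝒟 n) := R.op.inter (R.op.preimage (sh_cont n))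

/-- real rectangles -/
def RR (v : ℝ) : Set (ℂ × ℂ) := (fun q : ℝ × ℝ => ((q.1 : ℂ), (q.2 : ℂ))) '' (univ ×ˢ closedBall 0 |v|)

omit R in
theorem RR_pc (v : ℝ) : IsPreconnected (RR v) := by
  refine IsPreconnected.image ?_ _ (by fun_prop)
  exact (isPreconnected_univ).prod (convex_closedBall _ _).isPreconnected

omit R in
theorem mem_RR {v : ℝ} {x s : ℝ} (h : |s| ≤ |v|) : ((x : ℂ), (s : ℂ)) ∈ RR v :=
  ⟨(x, s), ⟨mem_univ _, by simpa using h⟩, rfl⟩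

theorem Rg.RR_sub (m : ℕ) : RR v ⊆ {u | u ∈ 𝒟 ∧ sh m u ∈ 𝒟} := by
  rintro _ ⟨⟨x, s⟩, ⟨-, hs⟩, rfl⟩
  have hs' : |s| ≤ |v| := by simpa using hs
  refine ⟨R.re x s hs', ?_⟩
  have := R.re (x + m * s) s hs'
  simpa [sh] using this

theorem Rg.mem0 (x : ℝ) : ((x : ℂ), (0 : ℂ)) ∈ RR v := by
  have := mem_RR (v := v) (x := x) (s := 0) (by simp)
  simpa using this

/-- the domain -/
theorem Rg.dom : H456.Fct.Dom (connectedComponentIn (SS 𝒟 n) (0, 0)) := by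
  have hRS : RR v ⊆ SS 𝒟 n := R.RR_sub n
  have h0 : ((0 : ℂ), (0 : ℂ)) ∈ RR v := by simpa using R.mem0 0
  have hRΩ : RR v ⊆ connectedComponentIn (SS 𝒟 n) (0, 0) :=
    (RR_pc v).subset_connectedComponentIn h0 hRS
  have hper : ∀ (c : ℝ), (∀ t w : ℂ, (t, w) ∈ 𝒟 ↔ (t + c, w) ∈ 𝒟) →
      ∀ u ∈ connectedComponentIn (SS 𝒟 n) (0, 0),
        ((u.1 + c, u.2) : ℂ × ℂ) ∈ connectedComponentIn (SS 𝒟 n) (0, 0) := by
    intro c hc u hu
    set T : ℂ × ℂ → ℂ × ℂ := fun u => (u.1 + c, u.2) with hT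
    have h1 : IsPreconnected (T '' connectedComponentIn (SS 𝒟 n) (0, 0)) :=
      isPreconnected_connectedComponentIn.image _ (by fun_prop)
    have h2 : T '' connectedComponentIn (SS 𝒟 n) (0, 0) ⊆ SS 𝒟 n := by
      rintro _ ⟨u, hu, rfl⟩
      obtain ⟨h3, h4⟩ := connectedComponentIn_subset _ _ hu
      refine ⟨(hc _ _).1 h3, ?_⟩
      have h5 := (hc _ _).1 h4
      have e : sh n (T u) = (u.1 + n * u.2 + c, u.2) := by
        simp only [sh, hT]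
        rw [show u.1 + (c : ℂ) + n * u.2 = u.1 + n * u.2 + c by ring]
      rw [e]
      exact h5
    have h3 : ((c : ℂ), (0 : ℂ)) ∈ T '' connectedComponentIn (SS 𝒟 n) (0, 0) :=
      ⟨(0, 0), mem_connectedComponentIn (hRS h0), by simp [hT]⟩
    have h4 := h1.subset_connectedComponentIn h3 h2
    have h5 : connectedComponentIn (SS 𝒟 n) (0, 0) = connectedComponentIn (SS 𝒟 n) ((c : ℂ), 0) :=
      connectedComponentIn_eq (hRΩ (R.mem0 c))
    rw [h5]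
    exact h4 ⟨u, hu, rfl⟩
  refine ⟨(R.isOpen_SS n).connectedComponentIn, isPreconnected_connectedComponentIn,
    fun u => ⟨fun hu => ?_, fun hu => ?_⟩, fun t => hRΩ (R.mem0 t)⟩
  · have := hper 1 (by simpa using R.per) u hu
    simpa using this
  · have := hper (-1) (fun t w => by
      rw [R.per (t + ((-1 : ℝ) : ℂ)) w]
      have e : t + ((-1 : ℝ) : ℂ) + 1 = t := by push_cast; ring
      rw [e]) _ hu
    have e : ((u.1 + 1 + ((-1 : ℝ) : ℂ), u.2) : ℂ × ℂ) = u := by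
      refine Prod.ext ?_ rfl
      push_cast
      ring
    rw [show (((u.1 + 1, u.2) : ℂ × ℂ).1 + ((-1 : ℝ) : ℂ), ((u.1 + 1, u.2) : ℂ × ℂ).2) = u from e]
      at this
    exact this

theorem Rg.sh_ev (m : ℕ) (t : ℝ) : ∀ᶠ u in 𝓝 ((t : ℂ), (0 : ℂ)),
    A (sh m u) = nat α 1 m u ∧ P (sh m u) = nat p 1 m u := by
  have h1 : Tendsto (sh m) (𝓝 ((t : ℂ), (0 : ℂ))) (𝓝 ((t : ℂ), (0 : ℂ))) := by
    have := (sh_cont m).tendsto ((t : ℂ), (0 : ℂ))
    simpa [sh] using this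
  filter_upwards [h1.eventually (R.eq t)] with u hu
  simpa [nat, sh] using hu

theorem Rg.outer : Outer (connectedComponentIn (SS 𝒟 n) (0, 0)) α p n A P
    (fun u => A (sh n u)) (fun u => P (sh n u)) where
  ha0 := fun u hu => R.aA u (connectedComponentIn_subset _ _ hu).1
  hq0 := fun u hu => R.aP u (connectedComponentIn_subset _ _ hu).1
  han := fun u hu => (R.aA _ (connectedComponentIn_subset _ _ hu).2).comp' (sh_an n u)
  hqn := fun u hu => (R.aP _ (connectedComponentIn_subset _ _ hu).2).comp' (sh_an n u)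
  eq := fun t => by
    filter_upwards [R.sh_ev 0 t, R.sh_ev n t] with u h1 h2
    refine ⟨?_, ?_, h2.1, h2.2⟩
    · rw [← h1.1]; simp [sh]
    · rw [← h1.2]; simp [sh]

/-- from a quotient on the domain to a meromorphic continuation on a slice -/
theorem Rg.slice_of_quo {j : ℕ} {τ : ℂ} (h0 : (τ, (v : ℂ)) ∈ 𝒟) (hn : (τ + n * v, (v : ℂ)) ∈ 𝒟)
    {f g : ℂ × ℂ → ℂ} (hf : AnalyticOnNhd ℂ f 𝒟) (hg : ∀ᶠ u in 𝓝 (((0 : ℝ) : ℂ), (0 : ℂ)), f (sh j u) = g u)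
    (hq : QuoOn (connectedComponentIn (SS 𝒟 n) (0, 0)) g) :
    ∃ U : Set ℂ, IsOpen U ∧ Convex ℝ U ∧ segment ℝ ((τ.re : ℂ)) τ ⊆ U ∧
      ∃ M : ℂ → ℂ, MeromorphicOn M U ∧ ∀ᶠ t in 𝓝[≠] (τ.re : ℂ), M t = f (t + j * v, v) := by
  obtain ⟨F, G, hF, hG, ⟨u₀, hu₀, hGu₀⟩, hGF⟩ := hq
  set Ω := connectedComponentIn (SS 𝒟 n) (0, 0) with hΩ
  have hD := R.dom n
  have hRS : RR v ⊆ SS 𝒟 n := R.RR_sub n
  have h00 : ((0 : ℂ), (0 : ℂ)) ∈ RR v := by simpa using R.mem0 0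
  have hRΩ : RR v ⊆ Ω := (RR_pc v).subset_connectedComponentIn h00 hRS
  -- the vertical segment
  have hbase : ((τ.re : ℂ), (v : ℂ)) ∈ Ω := hRΩ (mem_RR le_rfl)
  have hpt : ∀ y ∈ segment ℝ (τ.re : ℂ) τ, ∃ s ∈ Icc (0 : ℝ) 1, y = (τ.re : ℂ) + s * τ.im * I := by
    rintro y ⟨a, b, ha, hb, hab, rfl⟩
    refine ⟨b, ⟨hb, by linarith⟩, ?_⟩
    apply Complex.ext
    · simp
      rw [← add_mul, hab, one_mul]
    · simp
  have hseg : (segment ℝ (τ.re : ℂ) τ) ×ˢ {(v : ℂ)} ⊆ Ω := by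
    have h1 : IsPreconnected ((segment ℝ (τ.re : ℂ) τ) ×ˢ {(v : ℂ)}) :=
      (convex_segment _ _).isPreconnected.prod isPreconnected_singleton
    have h2 : (segment ℝ (τ.re : ℂ) τ) ×ˢ {(v : ℂ)} ⊆ SS 𝒟 n := by
      rintro ⟨y, w⟩ ⟨hy, hw⟩
      rw [mem_singleton_iff] at hw
      subst hw
      obtain ⟨s, hs, rfl⟩ := hpt y hy
      refine ⟨R.star τ v h0 s hs, ?_⟩
      have h3 := R.star _ _ hn s hs
      have e : sh n ((τ.re : ℂ) + s * τ.im * I, (v : ℂ)) =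
          (((τ + n * (v : ℂ)).re : ℂ) + s * (τ + n * (v : ℂ)).im * I, (v : ℂ)) := by
        refine Prod.ext ?_ rfl
        simp only [sh]
        apply Complex.ext
        · simp
        · simp
      rw [e]
      exact h3
    have h3 : ((τ.re : ℂ), (v : ℂ)) ∈ (segment ℝ (τ.re : ℂ) τ) ×ˢ {(v : ℂ)} :=
      ⟨left_mem_segment _ _ _, rfl⟩
    have h4 := h1.subset_connectedComponentIn h3 h2
    have h5 : Ω = connectedComponentIn (SS 𝒟 n) ((τ.re : ℂ), (v : ℂ)) := connectedComponentIn_eq hbase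
    rw [h5]
    exact h4
  -- thickening
  have hK : IsCompact ((segment ℝ (τ.re : ℂ) τ) ×ˢ {(v : ℂ)}) := by
    refine IsCompact.prod ?_ isCompact_singleton
    rw [segment_eq_image_lineMap]
    exact isCompact_Icc.image (by fun_prop)
  obtain ⟨η, hη, hηΩ⟩ := hK.exists_thickening_subset_open hD.op hseg
  set U : Set ℂ := thickening η (segment ℝ (τ.re : ℂ) τ) with hU
  have hUo : IsOpen U := isOpen_thickening
  have hUc : Convex ℝ U := (convex_segment _ _).thickening η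
  have hsU : segment ℝ (τ.re : ℂ) τ ⊆ U := self_subset_thickening hη _
  have hUΩ : U ×ˢ ball (v : ℂ) η ⊆ Ω := by
    rintro ⟨y, w⟩ ⟨hy, hw⟩
    apply hηΩ
    rw [hU, mem_thickening_iff] at hy
    obtain ⟨z, hz, hyz⟩ := hy
    rw [mem_thickening_iff]
    exact ⟨(z, v), ⟨hz, rfl⟩, by rw [Prod.dist_eq]; exact max_lt hyz hw⟩
  -- the relation near `(Re τ, v)`
  set S' : Set (ℂ × ℂ) := {u | u ∈ Ω ∧ sh j u ∈ 𝒟} with hS'
  have hS'o : IsOpen S' := hD.op.inter (R.op.preimage (sh_cont j))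
  have hRS' : RR v ⊆ S' := fun u hu => ⟨hRΩ hu, (R.RR_sub j hu).2⟩
  set K := connectedComponentIn S' (0, 0) with hKdef
  have hRK : RR v ⊆ K := (RR_pc v).subset_connectedComponentIn h00 hRS'
  have hKo : IsOpen K := hS'o.connectedComponentIn
  have hKS : K ⊆ S' := connectedComponentIn_subset _ _
  have hfs : AnalyticOnNhd ℂ (fun u => f (sh j u)) K := fun u hu =>
    (hf _ (hKS hu).2).comp' (sh_an j u)
  have hrel : EqOn (fun u => G u * f (sh j u)) F K := by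
    have h1 : AnalyticOnNhd ℂ (fun u => G u * f (sh j u)) K :=
      (hG.1.mono fun u hu => (hKS hu).1).mul hfs
    have h2 : AnalyticOnNhd ℂ F K := hF.1.mono fun u hu => (hKS hu).1
    refine h1.eqOn_of_preconnected_of_eventuallyEq h2 isPreconnected_connectedComponentIn
      (hRK h00) ?_
    have h3 := hGF 0
    simp only [ofReal_zero] at h3 hg
    filter_upwards [h3, hg] with u h4 h5
    rw [h5, h4]
  have hbK : ((τ.re : ℂ), (v : ℂ)) ∈ K := hRK (mem_RR le_rfl)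
  obtain ⟨M, hM, hMf⟩ := mero_slice (f := fun u => f (sh j u)) hUo hUc (hsU (left_mem_segment _ _ _)) hη
    (hF.1.mono hUΩ) (hG.1.mono hUΩ) (hfs _ hbK)
    (by filter_upwards [hKo.mem_nhds hbK] with u hu using hrel hu)
    (by
      intro hcon
      have := hG.1.eqOn_zero_of_preconnected_of_eventuallyEq_zero hD.pc hbase hcon hu₀
      exact hGu₀ this)
  exact ⟨U, hUo, hUc, hsU, M, hM, hMf⟩

end

/-- **Row Sp1** : meromorphic continuation of `exp (I A (·, v))`, `P (·, v)` along the vertical through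
`t₁ = τ + j v`, if `τ` and `τ + n v` are regular points -/
theorem fct_slice (hF : FCT) {κ Λ : ℝ} {H Φ : ℂ → ℂ} {r e : ℝ} {α p : ℂ → ℂ → ℂ} {J : ℂ → ℂ}
    (T : Ctx κ Λ H Φ r e α p J) (na : ¬ HAlg κ H) {𝒟 : Set (ℂ × ℂ)} {v : ℝ} {A P : ℂ × ℂ → ℂ}
    (R : Rg α p 𝒟 v A P) {n j : ℕ} (hj : j ≤ n) {t₁ : ℂ} (h0 : (t₁ - j * v, (v : ℂ)) ∈ 𝒟)
    (hn : (t₁ - j * v + n * v, (v : ℂ)) ∈ 𝒟) :
    ∃ U : Set ℂ, IsOpen U ∧ Convex ℝ U ∧ segment ℝ ((t₁.re : ℂ)) t₁ ⊆ U ∧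
      ∃ MZ MP : ℂ → ℂ, MeromorphicOn MZ U ∧ MeromorphicOn MP U ∧
        ∀ᶠ t in 𝓝[≠] (t₁.re : ℂ), MZ t = exp (I * A (t, v)) ∧ MP t = P (t, v) := by
  have hD := R.dom n
  obtain ⟨q1, q2⟩ := hF T na hD (R.outer n) j hj
  have hev := R.sh_ev j 0
  obtain ⟨U, hU, hUc, hUs, M, hM, hMf⟩ := R.slice_of_quo n (j := j) (f := fun u => exp (I * A u)) h0 hn
    (fun u hu => (analyticAt_const.mul (R.aA u hu)).cexp) (by
      filter_upwards [hev] with u hu
      rw [hu.1]) q1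
  obtain ⟨U', hU', hUc', hUs', M', hM', hMf'⟩ := R.slice_of_quo n (j := j) (f := P) h0 hn R.aP (by
      filter_upwards [hev] with u hu
      rw [hu.2]) q2
  -- shift back
  set s : ℂ := j * v with hs
  have hre : ((t₁ - s).re : ℂ) = (t₁.re : ℂ) - s := by
    rw [hs]
    apply Complex.ext <;> simp
  set T' : ℂ → ℂ := fun t => t - s with hT'
  have hT'c : Continuous T' := by fun_prop
  have hpre : ∀ {V : Set ℂ}, Convex ℝ V → Convex ℝ (T' ⁻¹' V) := by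
    intro V hV x hx y hy a b ha hb hab
    have h1 := hV hx hy ha hb hab
    have e : a • T' x + b • T' y = T' (a • x + b • y) := by
      simp only [hT', smul_sub]
      have h2 : a • s + b • s = s := by rw [← add_smul, hab, one_smul]
      calc a • x - a • s + (b • y - b • s) = a • x + b • y - (a • s + b • s) := by ring
        _ = _ := by rw [h2]
    rw [mem_preimage, ← e]
    exact h1
  have hsegT : ∀ x ∈ segment ℝ (t₁.re : ℂ) t₁, T' x ∈ segment ℝ ((t₁ - s).re : ℂ) (t₁ - s) := by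
    rintro x ⟨a, b, ha, hb, hab, rfl⟩
    refine ⟨a, b, ha, hb, hab, ?_⟩
    rw [hre]
    simp only [hT', smul_sub]
    have h2 : a • s + b • s = s := by rw [← add_smul, hab, one_smul]
    calc a • (t₁.re : ℂ) - a • s + (b • t₁ - b • s) = a • (t₁.re : ℂ) + b • t₁ - (a • s + b • s) := by ring
      _ = _ := by rw [h2]
  have hmer : ∀ {V : Set ℂ} {N : ℂ → ℂ}, MeromorphicOn N V → MeromorphicOn (fun t => N (T' t)) (T' ⁻¹' V) := by
    intro V N hN x hx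
    have h1 : MeromorphicAt N (T' x) := hN _ hx
    refine h1.comp_analyticAt ?_
    exact analyticAt_id.sub analyticAt_const
  have htend : Tendsto T' (𝓝[≠] (t₁.re : ℂ)) (𝓝[≠] ((t₁ - s).re : ℂ)) := by
    rw [hre]
    refine tendsto_nhdsWithin_iff.2 ⟨(hT'c.tendsto _).mono_left nhdsWithin_le_nhds, ?_⟩
    filter_upwards [self_mem_nhdsWithin] with x hx
    intro h
    apply hx
    simp only [hT', mem_singleton_iff] at h
    rw [mem_singleton_iff]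
    linear_combination h
  refine ⟨(T' ⁻¹' U) ∩ (T' ⁻¹' U'), (hU.preimage hT'c).inter (hU'.preimage hT'c),
    (hpre hUc).inter (hpre hUc'), fun x hx => ⟨hUs (hsegT x hx), hUs' (hsegT x hx)⟩,
    fun t => M (T' t), fun t => M' (T' t), (hmer hM).mono_set inter_subset_left,
    (hmer hM').mono_set inter_subset_right, ?_⟩
  filter_upwards [htend.eventually hMf, htend.eventually hMf'] with t h1 h2
  refine ⟨?_, ?_⟩
  · rw [h1]
    simp only [hT', ← hs, sub_add_cancel]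
  · rw [h2]
    simp only [hT', ← hs, sub_add_cancel]

end Vale.Agent.P097.H456.Sp
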