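import Vale.Agent.P097.H456.Sp.Main
import Vale.Agent.P097.H456.Sp.Joint
import Vale.Agent.P097.H222.SpR


/-! # P097 / Row Sp (literal) -/

set_option linter.all false

namespace Vale.Agent.P097.H456.Sp

/-- **Row Sp** of `H531/CD/Defs.lean`, from FCT -/
theorem rowSp' (hF : Fct.FCT) : Vale.Agent.P097.CD.RowSp :=
  rowSp_of hF spJ Vale.Agent.P097.H222.SpR.spR

end Vale.Agent.P097.H456.Sp
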